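import Vale.Agent.P217.H260.Main

/-!
# P261 (helper432): endomorphisms of a one-parameter family of height `r` are integers
-/

namespace Vale.Agent.P261.H432

open MvPowerSeries Vale.Agent.P217 Vale.Agent.P217.FA

section Ring

variable {R : Type*} [CommRing R]

theorem exists_add_decomp' (G : FormalGroup R) (a b : ZPt G Unit) :
    ∃ h : PowerSeries R, ((a + b).val : PowerSeries R) = a.val + b.val + a.val * b.val * h := by
  obtain ⟨H, hH⟩ := exists_FG_decomp G
  have h := hasSubst_cons (τ := Unit) a.constantCoeff_val b.constantCoeff_val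
  refine ⟨H.subst ![a.val, b.val], ?_⟩
  rw [ZPt.val_add, hH, ← sHom_apply h, map_add, map_add, map_mul, map_mul, sHom_X, sHom_X,
    sHom_apply]
  rfl

theorem X_dvd_val' {G : FormalGroup R} (a : ZPt G Unit) :
    (PowerSeries.X : PowerSeries R) ∣ a.val :=
  PowerSeries.X_dvd_iff.mpr a.constantCoeff_val

/-- leading coefficients are additive. -/
theorem coeff_add_val {G : FormalGroup R} {a b : ZPt G Unit} {N : ℕ}
    (ha : (PowerSeries.X : PowerSeries R) ^ N ∣ a.val)
    (_hb : (PowerSeries.X : PowerSeries R) ^ N ∣ b.val) :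
    PowerSeries.coeff N (a + b).val = PowerSeries.coeff N a.val + PowerSeries.coeff N b.val := by
  obtain ⟨h, hh⟩ := exists_add_decomp' G a b
  rw [hh, map_add, map_add]
  have h2 : (PowerSeries.X : PowerSeries R) ^ (N + 1) ∣ (a.val : PowerSeries R) * b.val := by
    rw [pow_succ]; exact mul_dvd_mul ha (X_dvd_val' b)
  rw [(PowerSeries.X_pow_dvd_iff.mp (h2.mul_right h)) N (Nat.lt_succ_self N), add_zero]

theorem dvd_add_val {G : FormalGroup R} {a b : ZPt G Unit} {N : ℕ}
    (ha : (PowerSeries.X : PowerSeries R) ^ N ∣ a.val)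
    (hb : (PowerSeries.X : PowerSeries R) ^ N ∣ b.val) :
    (PowerSeries.X : PowerSeries R) ^ N ∣ (a + b).val := by
  obtain ⟨h, hh⟩ := exists_add_decomp' G a b
  rw [hh]
  exact dvd_add (dvd_add ha hb) ((ha.mul_right _).mul_right _)

theorem dvd_nsmul_val {G : FormalGroup R} [G.IsComm] {a : ZPt G Unit} {N : ℕ}
    (ha : (PowerSeries.X : PowerSeries R) ^ N ∣ a.val) (m : ℕ) :
    (PowerSeries.X : PowerSeries R) ^ N ∣ (m • a).val := by
  induction m with
  | zero => rw [zero_nsmul, ZPt.val_zero]; exact dvd_zero _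
  | succ m ih => rw [succ_nsmul]; exact dvd_add_val ih ha

theorem coeff_nsmul_val {G : FormalGroup R} [G.IsComm] {a : ZPt G Unit} {N : ℕ}
    (ha : (PowerSeries.X : PowerSeries R) ^ N ∣ a.val) (m : ℕ) :
    PowerSeries.coeff N (m • a).val = m * PowerSeries.coeff N a.val := by
  induction m with
  | zero => rw [zero_nsmul, ZPt.val_zero, Nat.cast_zero, zero_mul]; exact map_zero _
  | succ m ih =>
    rw [succ_nsmul, coeff_add_val (dvd_nsmul_val ha m) ha, ih]
    push_cast
    ring

/-- the point `X`. -/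
noncomputable def ptX (G : FormalGroup R) : ZPt G Unit :=
  ZPt.mk G PowerSeries.X PowerSeries.constantCoeff_X

/-- a series without constant term as a point. -/
noncomputable def ptOf (G : FormalGroup R) (f : PowerSeries R)
    (hf : PowerSeries.constantCoeff f = 0) : ZPt G Unit := ZPt.mk G f hf

theorem ptOf_val (G : FormalGroup R) (f : PowerSeries R)
    (hf : PowerSeries.constantCoeff f = 0) : (ptOf G f hf).val = f := rfl

theorem nsmul_ptX_val (G : FormalGroup R) [G.IsComm] (m : ℕ) :
    (m • ptX G).val = multSeries G m := by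
  rw [ZPt.val_nsmul]
  exact PowerSeries.X_subst _

end Ring

section Height

variable {B : Type*} [CommRing B] {p : ℕ} [hp : Fact p.Prime] [CharP B p]

/-- If the coefficients of a homomorphism vanish up to `p^N`, they vanish below `p^(N+1)`. -/
theorem vanish_step {F G : FormalGroup B} {f : PowerSeries B} (hf : IsHom F G f) (N : ℕ)
    (hlow : ∀ j < p ^ N, PowerSeries.coeff j f = 0) (hN : PowerSeries.coeff (p ^ N) f = 0) :
    ∀ j < p ^ (N + 1), PowerSeries.coeff j f = 0 := by
  have hp0 : p ≠ 0 := hp.out.ne_zero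
  obtain ⟨W, hW, hWhom⟩ := hf.exists_height p N hlow
  have hc : ∀ j, PowerSeries.coeff j f =
      if p ^ N ∣ j then PowerSeries.coeff (j / p ^ N) W else 0 := by
    intro j
    rw [hW, ← PowerSeries.expand_apply (p ^ N) (pow_ne_zero _ hp0), PowerSeries.coeff_expand]
  have h1 : PowerSeries.coeff 1 W = 0 := by
    have := hc (p ^ N)
    rwa [hN, if_pos dvd_rfl, Nat.div_self (pow_pos hp.out.pos N), eq_comm] at this
  obtain ⟨W', hW'⟩ := exists_expand_of_derivative_eq_zero p W (hWhom.derivative_eq_zero h1)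
  intro j hj
  rw [hc]
  split_ifs with hd
  · obtain ⟨i, rfl⟩ := hd
    rw [Nat.mul_div_cancel_left _ (pow_pos hp.out.pos N)]
    have hi : i < p := by
      rw [pow_succ] at hj
      exact Nat.lt_of_mul_lt_mul_left hj
    rcases Nat.eq_zero_or_pos i with rfl | hpos
    · rw [PowerSeries.coeff_zero_eq_constantCoeff_apply]
      exact hWhom.1
    · rw [hW', PowerSeries.coeff_expand, if_neg]
      intro h
      exact absurd (Nat.le_of_dvd hpos h) (by omega)
  · rfl

/-- the multiples `[p^k]`. -/
theorem pow_nsmul_ptX (G : FormalGroup B) [G.IsComm] {r : ℕ} {V : PowerSeries B}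
    (hV0 : PowerSeries.constantCoeff V = 0)
    (hV : multSeries G p = PowerSeries.subst (PowerSeries.X ^ (p ^ r) : PowerSeries B) V)
    (k : ℕ) : ∃ s : ℕ, s * (p ^ r - 1) + 1 = p ^ (r * k) ∧
      (PowerSeries.X : PowerSeries B) ^ (p ^ (r * k)) ∣ ((p ^ k) • ptX G).val ∧
      PowerSeries.coeff (p ^ (r * k)) ((p ^ k) • ptX G).val =
        (PowerSeries.coeff 1 V) ^ s := by
  have hp0 : p ≠ 0 := hp.out.ne_zero
  have hP : p ^ r ≠ 0 := pow_ne_zero _ hp0
  have hP1 : 1 ≤ p ^ r := Nat.one_le_iff_ne_zero.2 hP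
  induction k with
  | zero =>
    refine ⟨0, by simp, ?_, ?_⟩
    · rw [mul_zero, pow_zero, pow_one, one_nsmul]
      exact X_dvd_val' _
    · rw [mul_zero, pow_zero, pow_zero, one_nsmul]
      exact PowerSeries.coeff_one_X
  | succ k ih =>
    obtain ⟨s, hs, hd, hc⟩ := ih
    set a := (p ^ k) • ptX G with ha
    have h0 : PowerSeries.constantCoeff (a.val : PowerSeries B) = 0 := a.constantCoeff_val
    have hXP : PowerSeries.HasSubst (PowerSeries.X ^ (p ^ r) : PowerSeries B) :=
      PowerSeries.HasSubst.X_pow hP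
    have has : PowerSeries.HasSubst (a.val : PowerSeries B) :=
      PowerSeries.HasSubst.of_constantCoeff_zero' h0
    have hval : ((p ^ (k + 1)) • ptX G).val = PowerSeries.subst (a.val ^ (p ^ r)) V := by
      rw [pow_succ', mul_nsmul', ← ha, ZPt.val_nsmul, hV]
      rw [PowerSeries.subst_comp_subst_apply hXP has, PowerSeries.subst_pow has,
        PowerSeries.subst_X has]
    have hd' : (PowerSeries.X : PowerSeries B) ^ (p ^ (r * (k + 1))) ∣ a.val ^ (p ^ r) := by
      have h1 : p ^ (r * (k + 1)) = p ^ (r * k) * p ^ r := by rw [← pow_add]; ring_nf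
      rw [h1, pow_mul]
      exact pow_dvd_pow_of_dvd hd _
    have hc' : PowerSeries.coeff (p ^ (r * (k + 1))) (a.val ^ (p ^ r)) =
        ((PowerSeries.coeff 1 V) ^ s) ^ (p ^ r) := by
      obtain ⟨g, hg⟩ := hd
      have h1 : p ^ (r * (k + 1)) = p ^ (r * k) * p ^ r := by rw [← pow_add]; ring_nf
      have h2 : PowerSeries.constantCoeff g = (PowerSeries.coeff 1 V) ^ s := by
        rw [← hc, hg]
        have := PowerSeries.coeff_X_pow_mul g (p ^ (r * k)) 0
        rw [zero_add] at this
        rw [this, PowerSeries.coeff_zero_eq_constantCoeff_apply]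
      rw [hg, mul_pow, ← pow_mul, ← h1]
      have := PowerSeries.coeff_X_pow_mul (g ^ (p ^ r)) (p ^ (r * (k + 1))) 0
      rw [zero_add] at this
      rw [this, PowerSeries.coeff_zero_eq_constantCoeff_apply, map_pow, h2]
    have hQ : p ^ (r * (k + 1)) ≠ 0 := pow_ne_zero _ hp0
    refine ⟨s * p ^ r + 1, ?_, ?_, ?_⟩
    · obtain ⟨P, hPP⟩ : ∃ P, p ^ r = P + 1 := ⟨p ^ r - 1, by omega⟩
      have h1 : p ^ (r * (k + 1)) = p ^ (r * k) * p ^ r := by rw [← pow_add]; ring_nf
      rw [h1, ← hs, hPP, Nat.add_sub_cancel]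
      ring
    · rw [hval]
      obtain ⟨g, hg⟩ : ∃ g, V = PowerSeries.X * g := PowerSeries.X_dvd_iff.2 hV0
      have hs1 : PowerSeries.HasSubst (a.val ^ (p ^ r) : PowerSeries B) := by
        apply PowerSeries.HasSubst.of_constantCoeff_zero'
        rw [map_pow, h0, zero_pow hP]
      rw [hg, PowerSeries.subst_mul hs1, PowerSeries.subst_X hs1]
      exact hd'.mul_right _
    · rw [hval, core_coeff_subst_of_dvd V _ hV0 hQ hd', hc', ← pow_mul, ← pow_succ']

end Height

section Main

variable {B : Type*} [CommRing B] [IsDomain B] {p : ℕ} [hp : Fact p.Prime] [CharP B p]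

theorem pow_dvd_arith {r N s : ℕ} (h : s + p ^ N = 1 + s * p ^ r) :
    ∃ k, N = r * k ∧ s * (p ^ r - 1) + 1 = p ^ (r * k) := by
  have hp1 := hp.out.one_lt
  have hP1 : 1 ≤ p ^ r := Nat.one_le_pow _ _ (by omega)
  obtain ⟨P, hP⟩ : ∃ P, p ^ r = P + 1 := ⟨p ^ r - 1, by omega⟩
  have h1 : p ^ N = s * P + 1 := by
    rw [hP, mul_add, mul_one] at h
    omega
  have h2 : (p ^ r - 1) ∣ (p ^ N - 1) := by
    rw [hP, h1, Nat.add_sub_cancel, Nat.add_sub_cancel]
    exact dvd_mul_left _ _
  have h3 : r ∣ N := by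
    have h4 := Nat.pow_sub_one_gcd_pow_sub_one p r N
    rw [Nat.gcd_eq_left h2] at h4
    have h5 : p ^ r = p ^ (r.gcd N) := by
      have := Nat.one_le_pow (r.gcd N) p (by omega)
      omega
    have h6 := Nat.pow_right_injective hp.out.two_le h5
    rw [h6]
    exact Nat.gcd_dvd_right _ _
  obtain ⟨k, rfl⟩ := h3
  exact ⟨k, rfl, by rw [h1, hP, Nat.add_sub_cancel]⟩

/-- **Endomorphisms are `p`-adic integers**: for a formal group law of height `r` over a discrete
valuation ring `B` of characteristic `p`, with `[p](X) = V(X^(p^r))` and `V'(0)` a uniformizer,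
over which only the prime field is fixed by the `p^r`-power map, every endomorphism is congruent
to an integer modulo every power of the Frobenius. -/
theorem endo_approx {r : ℕ} (hr : 1 ≤ r) (G : FormalGroup B) [G.IsComm] {V : PowerSeries B}
    (hV0 : PowerSeries.constantCoeff V = 0)
    (hV : multSeries G p = PowerSeries.subst (PowerSeries.X ^ (p ^ r) : PowerSeries B) V)
    (hv0 : PowerSeries.coeff 1 V ≠ 0) (hvu : ¬ IsUnit (PowerSeries.coeff 1 V))
    (hfac : ∀ c : B, c ≠ 0 → ∃ (s : ℕ) (w : B), IsUnit w ∧ c = w * (PowerSeries.coeff 1 V) ^ s)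
    (hfix : ∀ w : B, w ^ (p ^ r) = w → ∃ a : ℕ, w = a)
    {D : PowerSeries B} (hD : IsHom G G D) (N : ℕ) :
    ∃ m : ℕ, ∀ j < p ^ N, PowerSeries.coeff j (ptOf G D hD.1 + m • ptX G).val = 0 := by
  have hp0 : p ≠ 0 := hp.out.ne_zero
  set v := PowerSeries.coeff 1 V with hv
  have hhom : ∀ m : ℕ, IsHom G G (ptOf G D hD.1 + m • ptX G).val := by
    intro m
    have h1 := hD.add (isHom_multSeries G m)
    rw [ZPt.val_add, nsmul_ptX_val]
    exact h1
  induction N with
  | zero =>
    refine ⟨0, fun j hj => ?_⟩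
    have : j = 0 := by rw [pow_zero] at hj; omega
    rw [this, PowerSeries.coeff_zero_eq_constantCoeff_apply]
    exact (hhom 0).1
  | succ N ih =>
    obtain ⟨m, hm⟩ := ih
    set E := (ptOf G D hD.1 + m • ptX G) with hE
    by_cases hc0 : PowerSeries.coeff (p ^ N) E.val = 0
    · exact ⟨m, vanish_step (hhom m) N hm hc0⟩
    obtain ⟨W, hW, hWhom⟩ := (hhom m).exists_height p N hm
    have hcW : PowerSeries.coeff (p ^ N) E.val = PowerSeries.coeff 1 W := by
      have : PowerSeries.coeff (p ^ N) (PowerSeries.subst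
          (PowerSeries.X ^ (p ^ N) : PowerSeries B) W : PowerSeries B) =
          PowerSeries.coeff 1 W := by
        rw [← PowerSeries.expand_apply (p ^ N) (pow_ne_zero _ hp0), PowerSeries.coeff_expand,
          if_pos dvd_rfl, Nat.div_self (pow_pos hp.out.pos N)]
      rw [← this, ← hW]
    set c := PowerSeries.coeff 1 W with hc
    have hrel : c * v ^ (p ^ N) = v * c ^ (p ^ r) := by
      have h1 := hWhom.coeff_one_rel (VF := V.map (iterateFrobenius B p N)) (VG := V)
        (pow_ne_zero r hp0) p ?_ hV0 ?_ hV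
      · rw [PowerSeries.coeff_map, iterateFrobenius_def] at h1
        exact h1
      · rw [← PowerSeries.coeff_zero_eq_constantCoeff_apply, PowerSeries.coeff_map,
          PowerSeries.coeff_zero_eq_constantCoeff_apply, hV0, map_zero]
      · rw [multSeries_map, hV]
        have h2 := PowerSeries.map_subst (h := iterateFrobenius B p N)
          (PowerSeries.HasSubst.X_pow (R := B) (pow_ne_zero r hp0)) V
        refine h2.trans ?_
        congr 1
        change PowerSeries.map (iterateFrobenius B p N) (PowerSeries.X ^ (p ^ r)) = _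
        rw [map_pow, PowerSeries.map_X]
    obtain ⟨s, w, hw, hcw⟩ := hfac c (by rw [← hcW]; exact hc0)
    have hrel2 : w * v ^ (s + p ^ N) = w ^ (p ^ r) * v ^ (1 + s * p ^ r) := by
      rw [hcw] at hrel
      rw [pow_add, ← mul_assoc, hrel, mul_pow, ← pow_mul, pow_add, pow_one]
      ring
    -- the exponents agree
    have hexp : s + p ^ N = 1 + s * p ^ r := by
      rcases lt_trichotomy (s + p ^ N) (1 + s * p ^ r) with hlt | heq | hgt
      · exfalso
        obtain ⟨d, hd⟩ := Nat.exists_eq_add_of_lt hlt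
        rw [hd, show s + p ^ N + d + 1 = (s + p ^ N) + (d + 1) by ring, pow_add _ (s + p ^ N),
          ← mul_assoc, mul_comm (w ^ p ^ r), mul_assoc, mul_comm w] at hrel2
        have h1 := mul_left_cancel₀ (pow_ne_zero _ hv0) hrel2
        apply hvu
        have h2 : v ∣ w := ⟨w ^ p ^ r * v ^ d, h1.trans (by ring)⟩
        exact isUnit_of_dvd_unit h2 hw
      · exact heq
      · exfalso
        obtain ⟨d, hd⟩ := Nat.exists_eq_add_of_lt hgt
        rw [hd, show 1 + s * p ^ r + d + 1 = (1 + s * p ^ r) + (d + 1) by ring,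
          pow_add _ (1 + s * p ^ r), ← mul_assoc, mul_comm w, mul_assoc,
          mul_comm (w ^ p ^ r)] at hrel2
        have h1 := mul_left_cancel₀ (pow_ne_zero _ hv0) hrel2
        apply hvu
        have h2 : v ∣ w ^ p ^ r := ⟨w * v ^ d, h1.symm.trans (by ring)⟩
        exact isUnit_of_dvd_unit h2 (hw.pow _)
    have hwfix : w ^ (p ^ r) = w := by
      rw [hexp] at hrel2
      exact (mul_right_cancel₀ (pow_ne_zero _ hv0) hrel2).symm
    obtain ⟨a, ha⟩ := hfix w hwfix
    obtain ⟨k, hk, hsk⟩ := pow_dvd_arith hexp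
    obtain ⟨s', hs', hd', hc'⟩ := pow_nsmul_ptX G hV0 hV k
    have hss : s' = s := by
      have h1 : s' * (p ^ r - 1) = s * (p ^ r - 1) := by omega
      have h2 : 0 < p ^ r - 1 := by
        have : 1 < p ^ r := Nat.one_lt_pow (by omega) hp.out.one_lt
        omega
      exact Nat.eq_of_mul_eq_mul_right h2 h1
    rw [← hk] at hd' hc'
    rw [hss] at hc'
    -- the new integer
    refine ⟨m + (p - 1) * a * p ^ k, ?_⟩
    have hnew : ptOf G D hD.1 + (m + (p - 1) * a * p ^ k) • ptX G =
        E + ((p - 1) * a) • ((p ^ k) • ptX G) := by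
      rw [hE, add_nsmul, mul_nsmul', add_assoc]
    have hdE : (PowerSeries.X : PowerSeries B) ^ (p ^ N) ∣ E.val :=
      PowerSeries.X_pow_dvd_iff.2 hm
    have hd2 := dvd_nsmul_val hd' ((p - 1) * a)
    refine vanish_step (hhom _) N ?_ ?_
    · rw [hnew]
      exact PowerSeries.X_pow_dvd_iff.1 (dvd_add_val hdE hd2)
    · rw [hnew, coeff_add_val hdE hd2, coeff_nsmul_val hd', hc', hcW, hcw, ha]
      have h1 : ((p - 1 : ℕ) : B) = -1 := by
        have h2 : ((p - 1 : ℕ) : B) + 1 = 0 := by
          have := CharP.cast_eq_zero B p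
          have h3 : p - 1 + 1 = p := Nat.sub_add_cancel hp.out.one_le
          rw [← h3] at this
          push_cast at this
          exact this
        exact eq_neg_of_add_eq_zero_left h2
      rw [Nat.cast_mul, h1]
      ring

end Main

end Vale.Agent.P261.H432
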