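import Vale.Agent.P261.H432.EndZ

/-!
# P261 (helper432): the last stratum `E₀ → E₀/I_{n-1} = 𝔽_q[[u_{n-1}]]`, and the infinitude of the
action on it
-/

namespace Vale.Agent.P261.H432

open MvPowerSeries Vale.Agent.P217 Vale.Agent.P217.FA

variable {p n : ℕ} [hp : Fact p.Prime]

/-- the index of `u_{n-1}`. -/
def eU (hn : 2 ≤ n) : Fin (n - (n - 1)) ≃ Unit where
  toFun _ := ()
  invFun _ := ⟨0, by omega⟩
  left_inv j := by
    apply Fin.ext
    have := j.2
    simp only
    omega
  right_inv _ := rfl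

/-- renaming the variable. -/
noncomputable def eqU (p : ℕ) [Fact p.Prime] (hn : 2 ≤ n) :
    MvPowerSeries (Fin (n - (n - 1))) (GaloisField p n) ≃+* PowerSeries (GaloisField p n) :=
  (renameEquiv (GaloisField p n) (eU hn)).toRingEquiv

/-- the reduction `E₀ → E₀ / I_{n-1} = 𝔽_q[[u_{n-1}]]`. -/
noncomputable def rho (p n : ℕ) [Fact p.Prime] (hn : 2 ≤ n) :
    E0 p n →+* PowerSeries (GaloisField p n) :=
  ((eqU p hn : MvPowerSeries (Fin (n - (n - 1))) (GaloisField p n) ≃+*
    PowerSeries (GaloisField p n)) : MvPowerSeries (Fin (n - (n - 1))) (GaloisField p n) →+*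
    PowerSeries (GaloisField p n)).comp (piH p n (n - 1) (by omega) (by omega))

theorem rho_apply (hn : 2 ≤ n) (x : E0 p n) :
    rho p n hn x = eqU p hn (piH p n (n - 1) (by omega) (by omega) x) := rfl

theorem rho_surjective (hn : 2 ≤ n) : Function.Surjective (rho p n hn) := by
  intro y
  obtain ⟨z, rfl⟩ := (eqU p hn).surjective y
  obtain ⟨x, rfl⟩ := piH_surjective (p := p) (n - 1) (by omega) (by omega) z
  exact ⟨x, rfl⟩

theorem ker_rho (hn : 2 ≤ n) : RingHom.ker (rho p n hn) = heightIdeal p n (n - 1) := by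
  rw [← ker_piH (n - 1) (by omega) (by omega)]
  ext x
  rw [RingHom.mem_ker, RingHom.mem_ker, rho_apply, map_eq_zero_iff _ (eqU p hn).injective]

theorem constantCoeff_eqU (hn : 2 ≤ n) (x) :
    PowerSeries.constantCoeff (eqU p hn x) = constantCoeff x :=
  constantCoeff_rename (eU hn) x

theorem eqU_X (hn : 2 ≤ n) (i) : eqU p hn (X i) = PowerSeries.X :=
  rename_X (eU hn) i

theorem eqU_C (hn : 2 ≤ n) (c) : eqU p hn (C c) = PowerSeries.C c :=
  rename_C (eU hn) c

theorem constantCoeff_rho (hn : 2 ≤ n) (x : E0 p n) :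
    PowerSeries.constantCoeff (rho p n hn x) = red p n x := by
  rw [rho_apply, constantCoeff_eqU, constantCoeff_piH]

theorem isHomoCC (hn : 2 ≤ n) :
    (PowerSeries.constantCoeff (R := GaloisField p n)).comp (rho p n hn) = red p n :=
  RingHom.ext fun x => constantCoeff_rho hn x

/-- `[p](X) = V(X^(p^(n-1)))` modulo `I_{n-1}`, with `V'(0) = unit * u_{n-1}`. -/
theorem exists_V {Γ : FormalGroup (ZMod p)} (hn : 2 ≤ n) (hΓ : IsHonda p n Γ)
    {F : FormalGroup (E0 p n)} (hF : IsUniversalDeformation p n Γ F) (hH : HeightAdapted p n F) :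
    ∃ V : PowerSeries (PowerSeries (GaloisField p n)), PowerSeries.constantCoeff V = 0 ∧
      multSeries (F.map (rho p n hn)) p = PowerSeries.subst
        (PowerSeries.X ^ (p ^ (n - 1)) : PowerSeries (PowerSeries (GaloisField p n))) V ∧
      ∃ e : PowerSeries (GaloisField p n), IsUnit e ∧
        PowerSeries.coeff 1 V = e * PowerSeries.X := by
  obtain ⟨A, hA⟩ := exists_famFG' (by omega) (IsHonda.hondaLike (by omega) hΓ _ _) hF hH (n - 1)
    (by omega) (by omega)
  set ε : MvPowerSeries (Fin (n - (n - 1))) (GaloisField p n) →+* PowerSeries (GaloisField p n) :=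
    (eqU p hn : MvPowerSeries (Fin (n - (n - 1))) (GaloisField p n) →+*
    PowerSeries (GaloisField p n)) with hε
  have hP : p ^ (n - 1) ≠ 0 := pow_ne_zero _ hp.out.ne_zero
  refine ⟨A.V.map ε, ?_, ?_, ?_⟩
  · rw [← PowerSeries.coeff_zero_eq_constantCoeff_apply, PowerSeries.coeff_map,
      PowerSeries.coeff_zero_eq_constantCoeff_apply, A.V_zero, map_zero]
  · have h1 : F.map (rho p n hn) = A.G.map ε := by
      rw [hA, HT_FormalGroup_map_map]
      rfl
    rw [h1, multSeries_map, A.series]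
    have h2 := PowerSeries.map_subst (h := ε) (PowerSeries.HasSubst.X_pow
      (R := MvPowerSeries (Fin (n - (n - 1))) (GaloisField p n)) hP) A.V
    refine h2.trans ?_
    congr 1
    change PowerSeries.map ε (PowerSeries.X ^ (p ^ (n - 1))) = _
    rw [map_pow, PowerSeries.map_X]
  · obtain ⟨e, he, hV⟩ := A.V_one
    refine ⟨ε e, he.map ε, ?_⟩
    rw [PowerSeries.coeff_map, hV, map_mul]
    congr 1
    exact eqU_X hn _

omit hp in
theorem ps_charP (κ : Type*) [Field κ] [CharP κ p] : CharP (PowerSeries κ) p :=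
  HT_charP_mvPowerSeries (σ := Unit) p

/-- factorization in `κ[[X]]`. -/
theorem ps_fac {κ : Type*} [Field κ] {e v : PowerSeries κ} (he : IsUnit e)
    (hv : v = e * PowerSeries.X) (c : PowerSeries κ) (hc : c ≠ 0) :
    ∃ (s : ℕ) (w : PowerSeries κ), IsUnit w ∧ c = w * v ^ s := by
  obtain ⟨e', rfl⟩ := he
  obtain ⟨s, w, hw⟩ : ∃ (s : ℕ) (w : (PowerSeries κ)ˣ),
      c = (w : PowerSeries κ) * PowerSeries.X ^ s := by
    refine ⟨c.order.toNat, PowerSeries.Unit_of_divided_by_X_pow_order c, ?_⟩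
    rw [PowerSeries.Unit_of_divided_by_X_pow_order_nonzero hc, mul_comm]
    exact (PowerSeries.X_pow_order_mul_divXPowOrder).symm
  refine ⟨s, w * (↑(e'⁻¹ ^ s) : PowerSeries κ), (w.isUnit).mul (Units.isUnit _), ?_⟩
  rw [hw, hv, mul_pow]
  have : (↑(e'⁻¹ ^ s) : PowerSeries κ) * (e' : PowerSeries κ) ^ s = 1 := by
    rw [← Units.val_pow_eq_pow_val, ← Units.val_mul, ← mul_pow, inv_mul_cancel, one_pow,
      Units.val_one]
  linear_combination (-(w : PowerSeries κ) * PowerSeries.X ^ s) * this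

/-- the elements fixed by the `p^(n-1)`-power map. -/
theorem ps_fix (hn : 2 ≤ n) (w : PowerSeries (GaloisField p n)) (hw : w ^ (p ^ (n - 1)) = w) :
    ∃ a : ℕ, w = a := by
  have h1 := eq_C_of_pow_eq (p := p) (κ := GaloisField p n) (τ := Unit) (by omega) hw
  set c := MvPowerSeries.constantCoeff w with hc
  have h2 : c ^ (p ^ (n - 1)) = c := by rw [hc, ← map_pow, hw]
  have h3 : c ^ (p ^ n) = c := galois_pow (by omega) c
  have h4 : c ^ p = c := by
    have : p ^ n = p ^ (n - 1) * p := by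
      rw [← pow_succ]; congr 1; omega
    rw [this, pow_mul, h2] at h3
    exact h3
  obtain ⟨a, ha⟩ := bc_exists_of_pow_card (algebraMap (ZMod p) (GaloisField p n)) c (by
    rw [Nat.card_zmod]; exact h4)
  refine ⟨a.val, ?_⟩
  rw [h1, ← ha]
  have h5 : (algebraMap (ZMod p) (GaloisField p n)) a = (a.val : GaloisField p n) := by
    conv_lhs => rw [← ZMod.natCast_zmod_val a]
    rw [map_natCast]
  rw [h5, map_natCast]

end Vale.Agent.P261.H432
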