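import Vale.Agent.P217.H260.Main

/-!
# P261 (helper432): `ℤ_p → E₀`
-/

namespace Vale.Agent.P261.H432

open Vale.Agent.P217

variable {p n : ℕ} [hp : Fact p.Prime]

theorem p_mem : (p : E0 p n) ∈ IsLocalRing.maximalIdeal (E0 p n) :=
  C0.p_mem_maximalIdeal_E0

theorem iota_unique (f g : ℤ_[p] →+* E0 p n) : f = g := by
  refine RingHom.ext fun x => ?_
  have h1 := Ideal.iInf_pow_eq_bot_of_isLocalRing (Ideal.span {(p : E0 p n)}) (by
    intro h0
    have h3 : Ideal.span {(p : E0 p n)} ≤ IsLocalRing.maximalIdeal (E0 p n) := by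
      rw [Ideal.span_singleton_le_iff_mem]
      exact p_mem
    rw [h0, top_le_iff] at h3
    exact (IsLocalRing.maximalIdeal.isMaximal (E0 p n)).ne_top h3)
  have h2 : f x - g x ∈ (⨅ i : ℕ, Ideal.span {(p : E0 p n)} ^ i : Ideal (E0 p n)) := by
    rw [Submodule.mem_iInf]
    intro k
    have h3 := PadicInt.appr_spec k x
    rw [Ideal.mem_span_singleton] at h3
    obtain ⟨y, hy⟩ := h3
    have h4 : x = (x.appr k : ℤ_[p]) + (p : ℤ_[p]) ^ k * y := by rw [← hy]; ring
    rw [Ideal.span_singleton_pow, Ideal.mem_span_singleton]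
    refine ⟨f y - g y, ?_⟩
    conv_lhs => rw [h4]
    simp only [map_add, map_mul, map_pow, map_natCast]
    ring
  rw [h1, Ideal.mem_bot, sub_eq_zero] at h2
  exact h2

theorem exists_iota : Nonempty (ℤ_[p] →+* E0 p n) :=
  ⟨(MvPowerSeries.C (σ := Fin (n - 1)) (R := WittVector p (GaloisField p n))).comp
    ((WittVector.map (algebraMap (ZMod p) (GaloisField p n))).comp
      ((WittVector.equiv p).symm : ℤ_[p] →+* WittVector p (ZMod p)))⟩

end Vale.Agent.P261.H432
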