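import Vale.Agent.P217.H260.Main

/-!
# P261 (helper432): the extended Morava stabilizer group as a group of pairs, and its action on the
homotopy groups of Morava `E`-theory
-/

namespace Vale.Agent.P261.H432

open Vale.Agent.P217

variable {p n : ℕ} [hp : Fact p.Prime]

/-- The extended Morava stabilizer group `G_n`, as the group of the pairs `(φ, g)`, where `φ` is an
automorphism of the ring `E₀` and `g : F → φ_* F` is an isomorphism of formal group laws over
`E₀`, `F` the universal deformation. -/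
@[ext] structure Stab (F : FormalGroup (LT.E0 p n)) where
  /-- the automorphism of `E₀` -/
  φ : RingAut (LT.E0 p n)
  /-- the isomorphism `F → φ_* F` -/
  g : PowerSeries (LT.E0 p n)
  iso : LT.IsIso F (F.map (φ : LT.E0 p n →+* LT.E0 p n)) g

namespace Stab

variable {F : FormalGroup (LT.E0 p n)}

theorem iso' (a : Stab F) : P217.IsIso F (F.map (a.φ : E0 p n →+* E0 p n)) a.g :=
  LTC.isIso_iff.1 a.iso

theorem cc (a : Stab F) : PowerSeries.constantCoeff a.g = 0 := a.iso.1

theorem hs (a : Stab F) : PowerSeries.HasSubst a.g := C0.hasSubst_of_cc a.cc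

theorem cc_map (a : Stab F) (ψ : E0 p n →+* E0 p n) :
    PowerSeries.constantCoeff (a.g.map ψ) = 0 := C0.cc_map ψ a.cc

/-- the product: `(φ, g)(φ', g') = (φ φ', φ(g') ∘ g)`. -/
noncomputable instance : Mul (Stab F) where
  mul a b :=
    { φ := a.φ * b.φ
      g := PowerSeries.subst a.g (b.g.map (a.φ : E0 p n →+* E0 p n))
      iso := by
        have h1 := b.iso'.mapC (a.φ : E0 p n →+* E0 p n)
        rw [C0.FG_map_map] at h1
        exact LTC.isIso_iff.2 (a.iso'.compC h1) }

theorem mul_φ (a b : Stab F) : (a * b).φ = a.φ * b.φ := rfl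

theorem mul_g (a b : Stab F) :
    (a * b).g = PowerSeries.subst a.g (b.g.map (a.φ : E0 p n →+* E0 p n)) := rfl

/-- the unit `(1, X)`. -/
noncomputable instance : One (Stab F) where
  one :=
    { φ := 1
      g := PowerSeries.X
      iso := by
        have h : F.map ((1 : RingAut (E0 p n)) : E0 p n →+* E0 p n) = F := C0.FG_map_id
        rw [h]
        exact LTC.isIso_iff.2 C0.isIso_X }

theorem one_φ : (1 : Stab F).φ = 1 := rfl

theorem one_g : (1 : Stab F).g = PowerSeries.X := rfl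

theorem exists_inv (a : Stab F) : ∃ b : Stab F, b * a = 1 := by
  obtain ⟨h, hh, h1, h2⟩ := a.iso'.symmC
  have h3 := hh.mapC ((a.φ⁻¹ : RingAut (E0 p n)) : E0 p n →+* E0 p n)
  have h4 : ((a.φ⁻¹ : RingAut (E0 p n)) : E0 p n →+* E0 p n).comp
      (a.φ : E0 p n →+* E0 p n) = RingHom.id _ := by
    ext x : 1
    exact a.φ.symm_apply_apply x
  rw [C0.FG_map_map, h4, C0.FG_map_id] at h3
  refine ⟨⟨a.φ⁻¹, h.map ((a.φ⁻¹ : RingAut (E0 p n)) : E0 p n →+* E0 p n),
    LTC.isIso_iff.2 h3⟩, ?_⟩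
  apply Stab.ext
  · rw [mul_φ]
    exact inv_mul_cancel a.φ
  · rw [mul_g]
    change (PowerSeries.subst (PowerSeries.map ((a.φ⁻¹ : RingAut (E0 p n)) : E0 p n →+* E0 p n) h)
      (PowerSeries.map ((a.φ⁻¹ : RingAut (E0 p n)) : E0 p n →+* E0 p n) a.g) :
        PowerSeries (E0 p n)) = PowerSeries.X
    rw [← C0.ps_map_subst _ hh.1.1, h2, PowerSeries.map_X]

noncomputable instance : Inv (Stab F) := ⟨fun a => (exists_inv a).choose⟩

theorem mul_assoc' (a b c : Stab F) : a * b * c = a * (b * c) := by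
  apply Stab.ext
  · rfl
  · rw [mul_g, mul_g, mul_g, mul_g, mul_φ]
    rw [C0.ps_map_subst _ b.cc, C0.ps_map_comp]
    have h1 : ((a.φ * b.φ : RingAut (E0 p n)) : E0 p n →+* E0 p n) =
        (a.φ : E0 p n →+* E0 p n).comp (b.φ : E0 p n →+* E0 p n) := rfl
    rw [h1]
    exact (PowerSeries.subst_comp_subst_apply
      (C0.hasSubst_of_cc (b.cc_map (a.φ : E0 p n →+* E0 p n))) a.hs _).symm

/-- the group structure. -/
noncomputable instance : Group (Stab F) :=
  Group.ofLeftAxioms mul_assoc' (fun a => by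
    apply Stab.ext
    · rfl
    · rw [mul_g, one_g, one_φ]
      have h1 : PowerSeries.map ((1 : RingAut (E0 p n)) : E0 p n →+* E0 p n) a.g = a.g := by
        ext k
        rw [PowerSeries.coeff_map]
        rfl
      rw [h1]
      exact PowerSeries.X_subst _) (fun a => (exists_inv a).choose_spec)

/-- the action on `E₀`. -/
noncomputable def toAut (F : FormalGroup (LT.E0 p n)) : Stab F →* RingAut (LT.E0 p n) where
  toFun a := a.φ
  map_one' := rfl
  map_mul' _ _ := rfl

/-- the linear coefficient of `g`, a crossed homomorphism `G_n → E₀ˣ`. -/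
noncomputable def lin (a : Stab F) : (LT.E0 p n)ˣ := a.iso.2.1.unit

theorem lin_val (a : Stab F) : (a.lin : E0 p n) = PowerSeries.coeff 1 a.g :=
  IsUnit.unit_spec _

/-- an automorphism of `E₀` on the units. -/
noncomputable def uMap (ψ : RingAut (LT.E0 p n)) : (LT.E0 p n)ˣ →* (LT.E0 p n)ˣ :=
  Units.map (ψ : LT.E0 p n →* LT.E0 p n)

theorem lin_mul (a b : Stab F) : (a * b).lin = a.lin * uMap a.φ b.lin := by
  apply Units.ext
  rw [Units.val_mul, lin_val, lin_val, mul_g, C0.coeff_one_subst a.cc, PowerSeries.coeff_map]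
  congr 1

/-- The action of `G_n` on `E_{2k} = π_{2k} E_n ≅ E₀`, `k ∈ ℤ`: `(φ, g)` acts through
`x ↦ g'(0)^k φ(x)`. -/
noncomputable def act (F : FormalGroup (LT.E0 p n)) (k : ℤ) (a : Stab F) (x : LT.E0 p n) :
    LT.E0 p n := ((a.lin ^ k : (LT.E0 p n)ˣ) : LT.E0 p n) * a.φ x

theorem act_one (k : ℤ) (x : E0 p n) : act F k 1 x = x := by
  have h1 : (1 : Stab F).lin = 1 := by
    apply Units.ext
    rw [lin_val, one_g, PowerSeries.coeff_one_X, Units.val_one]
  rw [act, h1, one_zpow, Units.val_one, one_mul, one_φ]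
  rfl

theorem act_mul (k : ℤ) (a b : Stab F) (x : E0 p n) :
    act F k (a * b) x = act F k a (act F k b x) := by
  rw [act, act, act, lin_mul, mul_zpow, ← map_zpow, Units.val_mul, mul_φ, map_mul, mul_assoc]
  rfl

/-- the central element `[m]_F(X)`, `m` prime to `p`. -/
noncomputable def cent (F : FormalGroup (LT.E0 p n)) [F.IsComm] (m : ℕ)
    (hm : IsUnit (m : E0 p n)) : Stab F where
  φ := 1
  g := multSeries F m
  iso := by
    have h : F.map ((1 : RingAut (E0 p n)) : E0 p n →+* E0 p n) = F := C0.FG_map_id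
    rw [h]
    exact LTC.isIso_iff.2 ⟨isHom_multSeries F m, by rwa [C0.coeff_one_multSeries]⟩

theorem cent_comm [F.IsComm] (m : ℕ) (hm : IsUnit (m : E0 p n)) (a : Stab F) :
    cent F m hm * a = a * cent F m hm := by
  apply Stab.ext
  · rw [mul_φ, mul_φ]
    change 1 * a.φ = a.φ * 1
    rw [one_mul, mul_one]
  · rw [mul_g, mul_g]
    change (PowerSeries.subst (multSeries F m)
      (PowerSeries.map ((1 : RingAut (E0 p n)) : E0 p n →+* E0 p n) a.g) :
        PowerSeries (E0 p n)) =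
      PowerSeries.subst a.g (PowerSeries.map (a.φ : E0 p n →+* E0 p n) (multSeries F m))
    have h1 : PowerSeries.map ((1 : RingAut (E0 p n)) : E0 p n →+* E0 p n) a.g = a.g := by
      ext k
      rw [PowerSeries.coeff_map]
      rfl
    rw [h1, FA.map_multSeries, a.iso'.1.subst_multSeries]

theorem act_cent [F.IsComm] (m : ℕ) (hm : IsUnit (m : E0 p n)) (k : ℤ) (x : E0 p n) :
    act F k (cent F m hm) x = ((hm.unit ^ k : (E0 p n)ˣ) : E0 p n) * x := by
  have h1 : (cent F m hm).lin = hm.unit := by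
    apply Units.ext
    rw [lin_val, IsUnit.unit_spec]
    exact C0.coeff_one_multSeries m
  rw [act, h1]
  rfl

variable {Γ : FormalGroup (ZMod p)}

/-- the image of `G_n` in the automorphisms of `E₀`. -/
theorem range_toAut (hF : LT.IsUniversal p n Γ F) :
    (toAut F).range = LT.actionGroup p n Γ F := by
  have hF' := LTC.isUniversal_iff.1 hF
  ext φ
  rw [H260.mem_actionGroup hF', H260.acts_iff_actIso hF']
  constructor
  · rintro ⟨a, rfl⟩
    exact ⟨a.g, a.iso'⟩
  · rintro ⟨g, hg⟩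
    exact ⟨⟨φ, g, LTC.isIso_iff.2 hg⟩, rfl⟩

/-- `Stab F` is the extended Morava stabilizer group: the reduction is a bijection onto the pairs
`(γ, σ)`, `γ ∈ Aut(Γ/𝔽_{p^n})`, `σ ∈ Gal(𝔽_{p^n}/𝔽_p)`. -/
theorem exists_unique (hF : LT.IsUniversal p n Γ F)
    (σ : GaloisField p n ≃+* GaloisField p n) (γ : PowerSeries (GaloisField p n))
    (hγ : LT.IsIso (LT.base p n Γ) (LT.base p n Γ) γ) :
    ∃! a : Stab F, (∀ x, LT.red p n (a.φ x) = σ (LT.red p n x)) ∧
      a.g.map (LT.red p n) = γ := by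
  have hF' := LTC.isUniversal_iff.1 hF
  obtain ⟨⟨φ, g⟩, ⟨h1, h2, h3⟩, h4⟩ := AC.exists_unique_pair hF' σ γ (LTC.isIso_iff.1 hγ)
  refine ⟨⟨φ, g, LTC.isIso_iff.2 h2⟩, ⟨fun x => RingHom.congr_fun h1 x, h3⟩, ?_⟩
  rintro ⟨φ', g', hg'⟩ ⟨h5, h6⟩
  have h7 := h4 (φ', g') ⟨RingHom.ext h5, LTC.isIso_iff.1 hg', h6⟩
  apply Stab.ext
  · exact congrArg Prod.fst h7
  · exact congrArg Prod.snd h7

/-- every element reduces to such a pair. -/
theorem exists_reduction (hF : LT.IsUniversal p n Γ F) (a : Stab F) :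
    (∃ σ : GaloisField p n ≃+* GaloisField p n, ∀ x, LT.red p n (a.φ x) = σ (LT.red p n x)) ∧
      LT.IsIso (LT.base p n Γ) (LT.base p n Γ) (a.g.map (LT.red p n)) := by
  have hF' := LTC.isUniversal_iff.1 hF
  obtain ⟨σ, ⟨h1, h2⟩, -⟩ := AC.exists_unique_reduction hF' a.φ a.g a.iso'
  exact ⟨⟨σ, fun x => RingHom.congr_fun h1 x⟩, LTC.isIso_iff.2 h2⟩

end Stab

end Vale.Agent.P261.H432
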