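import Vale.Agent.P261.H432.LemmaK2
import Vale.Agent.P261.H432.Step

/-!
# P261 (helper432): the invariants of a `p`-power torsion Morava module are finite
-/

namespace Vale.Agent.P261.H432

open Vale.Agent.P217

universe u v

variable {p n : ℕ} [hp : Fact p.Prime] {Γ : FormalGroup (ZMod p)} {F : FormalGroup (E0 p n)}

/-- the operators of a semilinear action as additive automorphisms. -/
def SemiAct.equiv {R : Type*} [CommRing R] {𝔾 : Type*} [Group 𝔾] {π : 𝔾 →* RingAut R} {M : Type*}
    [AddCommGroup M] [Module R M] {ρ : 𝔾 → M → M} (h : SemiAct π M ρ) (g : 𝔾) : M ≃+ M where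
  toFun := ρ g
  invFun := ρ g⁻¹
  left_inv m := by rw [← h.mul, inv_mul_cancel, h.one]
  right_inv m := by rw [← h.mul, mul_inv_cancel, h.one]
  map_add' := h.add g

/-- **The invariants of a `p`-power torsion Morava module are finite.** -/
theorem fin_torsion (hn : 1 ≤ n) (hΓ : LT.IsHonda p n Γ) (hF : LT.IsUniversal p n Γ F)
    (hH : LT.HeightAdapted p n F) {𝔾 : Type v} [Group 𝔾] (π : 𝔾 →* RingAut (E0 p n))
    (hU : π.range ≤ LT.actionGroup p n Γ F)
    (hfin : π.range.relIndex (LT.actionGroup p n Γ F) ≠ 0)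
    {M : Type u} [AddCommGroup M] [Module (E0 p n) M] [Module.Finite (E0 p n) M]
    {ρ : 𝔾 → M → M} (hρ : SemiAct π M ρ) (k : ℕ) (hk : ∀ m : M, (p : E0 p n) ^ k • m = 0) :
    {m : M | ∀ g, ρ g m = m}.Finite := by
  obtain ⟨-, hM⟩ := H260.main_subgroup.{u} hn hΓ hF hH π.range hU hfin
  obtain ⟨-, l, N, hN0, hNl, hN⟩ := hM M (by
    rintro φ ⟨g, rfl⟩
    exact ⟨hρ.equiv g, fun r m => hρ.smul g r m⟩)
  have hstab : ∀ i ≤ l, ∀ g, ∀ m ∈ N i, ρ g m ∈ N i := by
    intro i hi g m hm
    rcases eq_or_lt_of_le hi with rfl | hlt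
    · rw [hNl]; exact Submodule.mem_top
    · exact ((hN i hlt).2.1 (π g) (hU ⟨g, rfl⟩) (hρ.equiv g) (fun r m => hρ.smul g r m) m).1 hm
  have hind : ∀ i ≤ l, {m : M | m ∈ N i ∧ ∀ g, ρ g m = m}.Finite := by
    intro i
    induction i with
    | zero =>
      intro _
      refine (Set.finite_singleton (0 : M)).subset ?_
      rintro m ⟨hm, -⟩
      rw [hN0, Submodule.mem_bot] at hm
      exact hm
    | succ i ih =>
      intro hi
      obtain ⟨h1, -, h, hhn, h2⟩ := hN i (by omega)
      have hh : 1 ≤ h := by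
        rcases Nat.eq_zero_or_pos h with rfl | h0
        · exfalso
          obtain ⟨m, hm, hm'⟩ := SetLike.exists_of_lt h1
          have h3 := (h2 m hm ((p : E0 p n) ^ k)).1 (by rw [hk]; exact (N i).zero_mem)
          rcases h3 with h3 | h3
          · have h4 : (p : E0 p n) ^ k ∈ heightIdeal p n 0 := h3
            rw [heightIdeal, if_pos rfl, Ideal.mem_bot] at h4
            have h5 : (p : E0 p n) = 0 := eq_zero_of_pow_eq_zero h4
            have h6 := congrArg (fun x : E0 p n => MvPowerSeries.constantCoeff x) h5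
            rw [map_natCast, map_zero] at h6
            have h7 := WittVector.p_nonzero p (GaloisField p n)
            exact h7 h6
          · exact hm' h3
        · exact h0
      have hprime : (heightIdeal p n h).IsPrime := isPrime_heightIdeal hn h hhn
      exact hρ.finite_step (N i) (N (i + 1)) (hstab i (by omega)) (hstab (i + 1) hi)
        (heightIdeal p n h) h2 (C := Set.range (teich p n)) (Set.finite_range _) (by
        intro a b hb hab
        obtain ⟨c, hc⟩ := lemmaK' hΓ hF hH π.range hU hfin h hh hhn a b hb (by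
          rintro φ ⟨g, rfl⟩
          exact hab g)
        exact ⟨_, ⟨c, rfl⟩, hc⟩) (ih (by omega))
  refine (hind l le_rfl).subset ?_
  intro m hm
  exact ⟨by rw [hNl]; exact Submodule.mem_top, hm⟩

end Vale.Agent.P261.H432
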