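import Vale.Agent.P261.H432.H1
import Vale.Agent.P261.H432.Tors
import Vale.Agent.P261.H432.Stab
import Vale.Agent.P261.H432.Iota

/-!
# P261 (helper432): the lines `0` and `1` of the `K(n)`-local Adams-Novikov spectral sequence
-/

namespace Vale.Agent.P261.H432

open Vale.Agent.P217

universe u v

variable {p n : ℕ} [hp : Fact p.Prime] {Γ : FormalGroup (ZMod p)} {F : FormalGroup (E0 p n)}

theorem final_H0 (hn : 1 ≤ n) (hΓ : LT.IsHonda p n Γ) (hF : LT.IsUniversal p n Γ F)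
    (hH : LT.HeightAdapted p n F) (ι : ℤ_[p] →+* E0 p n) {𝔾 : Type v} [Group 𝔾]
    (π : 𝔾 →* RingAut (E0 p n)) (hU : π.range ≤ LT.actionGroup p n Γ F)
    (hfin : π.range.relIndex (LT.actionGroup p n Γ F) ≠ 0)
    (M : Type u) [AddCommGroup M] [Module (E0 p n) M] [Module.Finite (E0 p n) M]
    (ρ : 𝔾 → M → M) (hρ : SemiAct π M ρ) :
    ∃ S : Finset M, ∀ m : M, (∀ g, ρ g m = m) ↔ ∃ a : M → ℤ_[p], m = ∑ s ∈ S, ι (a s) • s := by
  classical
  let _ : Algebra ℤ_[p] (E0 p n) := ι.toAlgebra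
  let _ : Module ℤ_[p] M := Module.compHom M ι
  have hst : IsScalarTower ℤ_[p] (E0 p n) M := ⟨fun c r m => mul_smul (ι c) r m⟩
  have hπ : ∀ g (c : ℤ_[p]), π g (algebraMap ℤ_[p] (E0 p n) c) = algebraMap ℤ_[p] (E0 p n) c := by
    intro g c
    exact RingHom.congr_fun (iota_unique ((π g : E0 p n →+* E0 p n).comp ι) ι) c
  obtain ⟨S, hS⟩ := inv_fg (R := E0 p n) p_mem hπ (fun M _ _ _ ρ hρ k hk =>
    fin_torsion hn hΓ hF hH π hU hfin hρ k hk) hρ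
  refine ⟨S, fun m => ?_⟩
  rw [← mem_invZ hπ hρ, ← hS, Submodule.mem_span_finset]
  constructor
  · rintro ⟨a, -, ha⟩
    exact ⟨a, ha.symm⟩
  · rintro ⟨a, ha⟩
    refine ⟨fun s => if s ∈ S then a s else 0, ?_, ?_⟩
    · intro s hs
      by_contra h
      exact hs (if_neg h)
    · rw [ha]
      refine Finset.sum_congr rfl fun s hs => ?_
      change (if s ∈ S then a s else 0) • s = ι (a s) • s
      rw [if_pos hs]
      rfl

theorem final_H1 (hn : 1 ≤ n) (hΓ : LT.IsHonda p n Γ) (hF : LT.IsUniversal p n Γ F)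
    (hH : LT.HeightAdapted p n F) (ι : ℤ_[p] →+* E0 p n) {𝔾 : Type v} [Group 𝔾]
    (π : 𝔾 →* RingAut (E0 p n)) (hU : π.range ≤ LT.actionGroup p n Γ F)
    (hfin : π.range.relIndex (LT.actionGroup p n Γ F) ≠ 0)
    (M : Type u) [AddCommGroup M] [Module (E0 p n) M] [Module.Finite (E0 p n) M]
    (ρ : 𝔾 → M → M) (hρ : SemiAct π M ρ) (z : 𝔾) (hz : ∀ g, z * g = g * z) (hπz : π z = 1)
    (hinj : ∀ m, ρ z m = m → m = 0) (C : Set (𝔾 → M)) (hC : ∀ c ∈ C, IsCrossed ρ c)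
    (h0 : 0 ∈ C) (hadd : ∀ c ∈ C, ∀ d ∈ C, c + d ∈ C)
    (hsmul : ∀ (a : ℤ_[p]), ∀ c ∈ C, (fun g => ι a • c g) ∈ C) :
    ∃ S : Finset (𝔾 → M), (S : Set (𝔾 → M)) ⊆ C ∧
      ∀ c ∈ C, ∃ (a : (𝔾 → M) → ℤ_[p]) (m : M),
        ∀ g, c g = ∑ s ∈ S, ι (a s) • s g + (ρ g m - m) := by
  classical
  let _ : Algebra ℤ_[p] (E0 p n) := ι.toAlgebra
  let _ : Module ℤ_[p] M := Module.compHom M ι
  have hst : IsScalarTower ℤ_[p] (E0 p n) M := ⟨fun c r m => mul_smul (ι c) r m⟩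
  have hπ : ∀ g (c : ℤ_[p]), π g (algebraMap ℤ_[p] (E0 p n) c) = algebraMap ℤ_[p] (E0 p n) c := by
    intro g c
    exact RingHom.congr_fun (iota_unique ((π g : E0 p n →+* E0 p n).comp ι) ι) c
  let C' : Submodule ℤ_[p] (𝔾 → M) :=
    { carrier := C
      add_mem' := fun {a b} ha hb => hadd a ha b hb
      zero_mem' := h0
      smul_mem' := fun a c hc => hsmul a c hc }
  obtain ⟨S, hSC, hS⟩ := h1_fg (R := E0 p n) p_mem hπ (fun M _ _ _ ρ hρ k hk =>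
    fin_torsion hn hΓ hF hH π hU hfin hρ k hk) hρ hz hπz hinj C' hC
  refine ⟨S, hSC, fun c hc => ?_⟩
  obtain ⟨a, m, h⟩ := hS c hc
  refine ⟨a, m, fun g => ?_⟩
  conv_lhs => rw [h]
  rw [Pi.add_apply, Finset.sum_apply]
  rfl

theorem final_ptors (hn : 1 ≤ n) (hΓ : LT.IsHonda p n Γ) (hF : LT.IsUniversal p n Γ F)
    (hH : LT.HeightAdapted p n F) {𝔾 : Type v} [Group 𝔾]
    (π : 𝔾 →* RingAut (E0 p n)) (hU : π.range ≤ LT.actionGroup p n Γ F)
    (hfin : π.range.relIndex (LT.actionGroup p n Γ F) ≠ 0)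
    (M : Type u) [AddCommGroup M] [Module (E0 p n) M] [Module.Finite (E0 p n) M]
    (ρ : 𝔾 → M → M) (hρ : SemiAct π M ρ) (htf : ∀ m : M, (p : E0 p n) • m = 0 → m = 0) (k : ℕ)
    (C : Set (𝔾 → M)) (hCk : ∀ c ∈ C, ∃ m, ∀ g, (p : E0 p n) ^ k • c g = ρ g m - m) :
    ∃ S : Finset (𝔾 → M), (S : Set (𝔾 → M)) ⊆ C ∧
      ∀ c ∈ C, ∃ s ∈ S, ∃ m, ∀ g, c g = s g + (ρ g m - m) := by
  have hcast : ((p ^ k : ℕ) : E0 p n) = (p : E0 p n) ^ k := by push_cast; rfl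
  have htf' : ∀ (j : ℕ) (m : M), (p : E0 p n) ^ j • m = 0 → m = 0 := by
    intro j
    induction j with
    | zero => intro m hm; rwa [pow_zero, one_smul] at hm
    | succ j ih =>
      intro m hm
      rw [pow_succ', mul_smul] at hm
      exact ih m (htf _ hm)
  set N : Submodule (E0 p n) M := (Ideal.span {((p ^ k : ℕ) : E0 p n)}) • ⊤ with hN
  have hNmem : ∀ m, m ∈ N ↔ ∃ y, m = ((p ^ k : ℕ) : E0 p n) • y := by
    intro m
    rw [hN, Submodule.ideal_span_singleton_smul, Submodule.mem_smul_pointwise_iff_exists]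
    constructor
    · rintro ⟨y, -, rfl⟩; exact ⟨y, rfl⟩
    · rintro ⟨y, rfl⟩; exact ⟨y, Submodule.mem_top, rfl⟩
  have hNst : ∀ g, ∀ m ∈ N, ρ g m ∈ N := by
    intro g m hm
    obtain ⟨y, rfl⟩ := (hNmem m).1 hm
    exact (hNmem _).2 ⟨ρ g y, by rw [hρ.smul, map_natCast]⟩
  have h1 := fin_torsion hn hΓ hF hH π hU hfin (hρ.quo N hNst) k (by
    intro q
    obtain ⟨m, rfl⟩ := Submodule.Quotient.mk_surjective _ q
    rw [← Submodule.Quotient.mk_smul, Submodule.Quotient.mk_eq_zero, ← hcast]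
    exact (hNmem _).2 ⟨m, rfl⟩)
  obtain ⟨S, hSC, hS⟩ := h1_ptors hρ (p ^ k) (by rw [hcast]; exact htf' k) N hNmem hNst h1
    (C := C) (by rw [hcast]; exact hCk)
  refine ⟨S, hSC, fun c hc => ?_⟩
  obtain ⟨s, hs, m, hm⟩ := hS c hc
  exact ⟨s, hs, m, fun g => congrFun hm g⟩

theorem semiAct_act (k : ℤ) : SemiAct (Stab.toAut F) (E0 p n) (Stab.act F k) where
  one := Stab.act_one k
  mul := Stab.act_mul k
  add a x y := by rw [Stab.act, Stab.act, Stab.act, map_add, mul_add]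
  smul a r x := by
    change Stab.act F k a (r * x) = a.φ r * Stab.act F k a x
    rw [Stab.act, Stab.act, map_mul]
    ring

theorem isUnit_natCast {N : ℕ} (hN : ¬ p ∣ N) : IsUnit (N : E0 p n) := by
  by_contra h
  have h1 : (N : E0 p n) ∈ IsLocalRing.maximalIdeal (E0 p n) :=
    (IsLocalRing.mem_maximalIdeal _).2 h
  have h2 : IsCoprime ((p : ℤ)) (N : ℤ) :=
    Nat.isCoprime_iff_coprime.2 ((Nat.Prime.coprime_iff_not_dvd hp.out).2 hN)
  obtain ⟨a, b, hab⟩ := h2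
  have h3 : ((a * p + b * N : ℤ) : E0 p n) = 1 := by rw [hab]; simp
  push_cast at h3
  have h4 : (1 : E0 p n) ∈ IsLocalRing.maximalIdeal (E0 p n) := by
    rw [← h3]
    exact Ideal.add_mem _ (Ideal.mul_mem_left _ _ p_mem) (Ideal.mul_mem_left _ _ h1)
  exact (Ideal.ne_top_iff_one _).1 (IsLocalRing.maximalIdeal.isMaximal (E0 p n)).ne_top h4

theorem p_ne_zero : (p : E0 p n) ≠ 0 := by
  intro h5
  have h6 := congrArg (fun x : E0 p n => MvPowerSeries.constantCoeff x) h5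
  rw [map_natCast, map_zero] at h6
  exact WittVector.p_nonzero p (GaloisField p n) h6

/-- `N = p^j * unit`. -/
theorem natCast_eq {N : ℕ} (hN : N ≠ 0) :
    ∃ (j : ℕ) (w : (E0 p n)ˣ), (N : E0 p n) = w * (p : E0 p n) ^ j := by
  obtain ⟨j, N', hN', rfl⟩ := Nat.exists_eq_pow_mul_and_not_dvd hN p hp.out.ne_one
  refine ⟨j, (isUnit_natCast hN').unit, ?_⟩
  rw [IsUnit.unit_spec]
  push_cast
  ring

/-- `(1+p)^k - 1 = unit * p^j`. -/
theorem zpow_sub_one {u : (E0 p n)ˣ} (hu : (u : E0 p n) = ((p + 1 : ℕ) : E0 p n)) {k : ℤ}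
    (hk : k ≠ 0) : ∃ (j : ℕ) (w : (E0 p n)ˣ),
      ((u ^ k : (E0 p n)ˣ) : E0 p n) - 1 = w * (p : E0 p n) ^ j := by
  have hnat : ∀ m : ℕ, m ≠ 0 → ∃ (j : ℕ) (w : (E0 p n)ˣ),
      ((u ^ m : (E0 p n)ˣ) : E0 p n) - 1 = w * (p : E0 p n) ^ j := by
    intro m hm
    have h1 : 1 < (p + 1) ^ m := Nat.one_lt_pow hm (by have := hp.out.pos; omega)
    obtain ⟨j, w, h2⟩ := natCast_eq (p := p) (n := n) (N := (p + 1) ^ m - 1) (by omega)
    refine ⟨j, w, ?_⟩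
    rw [← h2, Units.val_pow_eq_pow_val, hu, Nat.cast_sub h1.le]
    push_cast
    rfl
  rcases lt_trichotomy k 0 with h | h | h
  · obtain ⟨m, rfl⟩ : ∃ m : ℕ, k = -(m : ℤ) := ⟨k.natAbs, by omega⟩
    obtain ⟨j, w, hw⟩ := hnat m (by omega)
    refine ⟨j, -(u ^ m)⁻¹ * w, ?_⟩
    rw [zpow_neg, zpow_natCast, Units.val_mul, Units.val_neg, mul_assoc, ← hw]
    have h3 : (((u ^ m)⁻¹ : (E0 p n)ˣ) : E0 p n) * ((u ^ m : (E0 p n)ˣ) : E0 p n) = 1 :=
      Units.inv_mul _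
    linear_combination h3
  · exact absurd h hk
  · obtain ⟨m, rfl⟩ : ∃ m : ℕ, k = (m : ℤ) := ⟨k.natAbs, by omega⟩
    obtain ⟨j, w, hw⟩ := hnat m (by omega)
    exact ⟨j, w, by rw [zpow_natCast]; exact hw⟩

/-- the sphere, nonzero weight. -/
theorem final_sphere (hn : 1 ≤ n) (hΓ : LT.IsHonda p n Γ) (hF : LT.IsUniversal p n Γ F)
    (hH : LT.HeightAdapted p n F) (k : ℤ) (hk : k ≠ 0) :
    (∀ x, (∀ a, Stab.act F k a x = x) → x = 0) ∧
    ∀ C : Set (Stab F → E0 p n), (∀ c ∈ C, IsCrossed (Stab.act F k) c) →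
      ∃ S : Finset (Stab F → E0 p n), (S : Set (Stab F → E0 p n)) ⊆ C ∧
        ∀ c ∈ C, ∃ s ∈ S, ∃ x, ∀ a, c a = s a + (Stab.act F k a x - x) := by
  have hc : F.IsComm := hF.1
  have hrange : (Stab.toAut F).range = LT.actionGroup p n Γ F := Stab.range_toAut hF
  have hunit : IsUnit ((p + 1 : ℕ) : E0 p n) := isUnit_natCast (by
    intro h
    have h1 : p ∣ 1 := (Nat.dvd_add_right (dvd_refl p)).1 h
    exact hp.out.one_lt.ne' (Nat.dvd_one.1 h1))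
  set z := Stab.cent F (p + 1) hunit with hz
  obtain ⟨j, w, hw⟩ := zpow_sub_one (u := hunit.unit) (IsUnit.unit_spec hunit) hk
  have hzx : ∀ x, Stab.act F k z x - x = w * (p : E0 p n) ^ j * x := by
    intro x
    rw [hz, Stab.act_cent, ← hw]
    ring
  have hdom : IsDomain (E0 p n) := NoZeroDivisors.to_isDomain _
  have hinj : ∀ x, Stab.act F k z x = x → x = 0 := by
    intro x hx
    have h1 := hzx x
    rw [hx, sub_self] at h1
    rcases mul_eq_zero.1 h1.symm with h2 | h2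
    · exact absurd h2 (mul_ne_zero w.isUnit.ne_zero (pow_ne_zero _ p_ne_zero))
    · exact h2
  refine ⟨fun x hx => hinj x (hx z), fun C hC => ?_⟩
  have hπz : Stab.toAut F z = 1 := rfl
  have hzc : ∀ a, z * a = a * z := Stab.cent_comm (p + 1) hunit
  have hρ := semiAct_act (F := F) k
  have hfinq := fin_torsion hn hΓ hF hH (Stab.toAut F) hrange.le (by
    rw [hrange, Subgroup.relIndex_self]
    exact one_ne_zero) (hρ.quo _ (subZ_stable hρ hzc hπz)) j (by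
    intro q
    obtain ⟨x, rfl⟩ := Submodule.Quotient.mk_surjective _ q
    rw [← Submodule.Quotient.mk_smul, Submodule.Quotient.mk_eq_zero]
    refine ⟨(↑(w⁻¹) : E0 p n) * x, ?_⟩
    rw [hzx]
    have h1 : (w : E0 p n) * (↑(w⁻¹) : E0 p n) = 1 := Units.mul_inv w
    rw [smul_eq_mul]
    linear_combination (-(p : E0 p n) ^ j * x) * h1)
  obtain ⟨S, hSC, hS⟩ := h1_finite hρ hzc hπz hinj hfinq hC
  refine ⟨S, hSC, fun c hc => ?_⟩
  obtain ⟨s, hs, x, hx⟩ := hS c hc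
  refine ⟨s, hs, x, fun a => ?_⟩
  conv_lhs => rw [hx]
  rfl

end Vale.Agent.P261.H432
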