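import Vale.Agent.P261.H432.Fam

/-!
# P261 (helper432): finite-index subgroups act nontrivially on `E₀/I_{n-1}`
-/

namespace Vale.Agent.P261.H432

open MvPowerSeries Vale.Agent.P217 Vale.Agent.P217.FA

section General

variable {R S : Type*} [CommRing R] [CommRing S]

theorem map_ptOf_add (f : R →+* S) (G : FormalGroup R) [G.IsComm] {G' : FormalGroup S}
    [G'.IsComm] (hG' : G.map f = G')
    (T : PowerSeries R) (hT : PowerSeries.constantCoeff T = 0)
    (hT' : PowerSeries.constantCoeff (T.map f) = 0) (m : ℕ) :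
    PowerSeries.map f (ptOf G T hT + m • ptX G).val =
      (ptOf G' (T.map f) hT' + m • ptX G').val := by
  subst hG'
  rw [ZPt.val_add, ZPt.val_add, nsmul_ptX_val, nsmul_ptX_val, ptOf_val, ptOf_val,
    ← map_multSeries]
  exact map_cons_subst f G (τ := Unit) hT (FPt.constantCoeff_multSeries G m)

theorem hom_ptX {F G : FormalGroup R} [F.IsComm] [G.IsComm] {f : PowerSeries R}
    (h : IsHom F G f) : ZPt.hom h (ptX F) = ptOf G f h.1 := by
  apply ZPt.ext
  rw [ZPt.hom_val, ptOf_val]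
  exact PowerSeries.X_subst _

theorem comp_eval {G : FormalGroup R} [G.IsComm] {T a b : PowerSeries R}
    (hT : PowerSeries.constantCoeff T = 0) (ha : PowerSeries.constantCoeff a = 0)
    (hb : PowerSeries.constantCoeff b = 0)
    (hTa : (PowerSeries.subst a T : PowerSeries R) = b) (m : ℕ) :
    (PowerSeries.subst a (ptOf G T hT + m • ptX G).val : PowerSeries R) =
      (ptOf G b hb + m • ptOf G a ha).val := by
  have h5 := HT_subst_pair_comp (a := (T : MvPowerSeries Unit R))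
    (b := multSeries G m) hT (FPt.constantCoeff_multSeries G m)
    (c := fun _ : Unit => a)
    (hasSubst_of_constantCoeff_zero fun _ => ha) G.toPowerSeries
  have e1 : (ptOf G T hT + m • ptX G).val =
      MvPowerSeries.subst ![T, multSeries G m] G.toPowerSeries := by
    rw [ZPt.val_add, nsmul_ptX_val, ptOf_val]
  rw [e1, ZPt.val_add, ZPt.val_nsmul, ptOf_val, ptOf_val, ← hTa]
  exact h5

theorem group_aux {M : Type*} [AddCommGroup M] (x y y' : M) (m : ℕ) :
    (x + y') + m • (x + y) = (m + 1) • x + (y' + m • y) := by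
  rw [nsmul_add, add_nsmul, one_nsmul]
  abel

end General

section Honda

variable {κ : Type*} [Field κ] {p n : ℕ} [hp : Fact p.Prime] [CharP κ p] {Γ₀ : FormalGroup κ}

/-- the point `X^(p^l)`. -/
noncomputable def ptF (p : ℕ) [Fact p.Prime] (Γ₀ : FormalGroup κ) (l : ℕ) : ZPt Γ₀ Unit :=
  ptOf Γ₀ (PowerSeries.C 1 * PowerSeries.X ^ (p ^ l)) (by
    have : p ^ l ≠ 0 := pow_ne_zero _ (Fact.out : p.Prime).ne_zero
    rw [map_mul, map_pow, PowerSeries.constantCoeff_X, zero_pow this, mul_zero])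

omit [CharP κ p] in
theorem ptF_val (l : ℕ) : (ptF p Γ₀ l).val = PowerSeries.X ^ (p ^ l) := by
  rw [ptF, ptOf_val, map_one, one_mul]

omit [CharP κ p] in
theorem gser_eq (l : ℕ) : gser p Γ₀ 1 l = (ptX Γ₀ + ptF p Γ₀ l).val := rfl

/-- no combination `(m+1) X +_Γ X^(p^l') +_Γ m X^(p^l)` vanishes to order `p^(l+1)`. -/
theorem honda_contra (hΓ₀ : HondaLike p n Γ₀) [Γ₀.IsComm] {l l' m : ℕ} (hll : l < l')
    (hnl : ¬ n ∣ l) (h : (PowerSeries.X : PowerSeries κ) ^ (p ^ (l + 1)) ∣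
      ((m + 1) • ptX Γ₀ + (ptF p Γ₀ l' + m • ptF p Γ₀ l)).val) : False := by
  have hp1 := hp.out.one_lt
  have hl0 : 1 ≤ l := by
    rcases Nat.eq_zero_or_pos l with rfl | h0
    · exact absurd (dvd_zero n) hnl
    · exact h0
  obtain ⟨v, M', hM', hM⟩ := Nat.exists_eq_pow_mul_and_not_dvd (n := m + 1) (by omega) p hp.out.ne_one
  obtain ⟨s, -, hd, hc⟩ := pow_nsmul_ptX Γ₀ (r := n) (V := PowerSeries.X)
    PowerSeries.constantCoeff_X (by
      rw [hΓ₀.series, PowerSeries.subst_X (PowerSeries.HasSubst.X_pow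
        (pow_ne_zero _ hp.out.ne_zero))]) v
  rw [PowerSeries.coeff_one_X, one_pow] at hc
  have hx : (m + 1) • ptX Γ₀ = M' • ((p ^ v) • ptX Γ₀) := by
    rw [hM, mul_comm, mul_nsmul']
  rw [hx] at h
  have hdx := dvd_nsmul_val hd M'
  have hcx := coeff_nsmul_val hd M'
  rw [hc, mul_one] at hcx
  have hdy : (PowerSeries.X : PowerSeries κ) ^ (p ^ l) ∣ (ptF p Γ₀ l).val := by
    rw [ptF_val]
  have hdy' : (PowerSeries.X : PowerSeries κ) ^ (p ^ (l + 1)) ∣ (ptF p Γ₀ l').val := by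
    rw [ptF_val]
    exact pow_dvd_pow _ (Nat.pow_le_pow_right hp.out.pos hll)
  have hll2 : p ^ l < p ^ (l + 1) := Nat.pow_lt_pow_right hp1 (Nat.lt_succ_self l)
  have hdy'' : (PowerSeries.X : PowerSeries κ) ^ (p ^ l) ∣ (ptF p Γ₀ l').val :=
    (pow_dvd_pow _ hll2.le).trans hdy'
  rcases lt_trichotomy (n * v) l with hlt | heq | hgt
  · have h1 : p ^ (n * v) < p ^ l := Nat.pow_lt_pow_right hp1 hlt
    have h2 : (PowerSeries.X : PowerSeries κ) ^ (p ^ l) ∣ (ptF p Γ₀ l' + m • ptF p Γ₀ l).val :=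
      dvd_add_val hdy'' (dvd_nsmul_val hdy m)
    have h3 := coeff_add_val hdx ((pow_dvd_pow _ h1.le).trans h2)
    rw [hcx, PowerSeries.X_pow_dvd_iff.1 h _ (h1.trans hll2),
      PowerSeries.X_pow_dvd_iff.1 h2 _ h1, add_zero] at h3
    exact hM' ((CharP.cast_eq_zero_iff κ p M').1 h3.symm)
  · exact hnl ⟨v, heq.symm⟩
  · have h1 : p ^ l < p ^ (n * v) := Nat.pow_lt_pow_right hp1 hgt
    have h2 : (PowerSeries.X : PowerSeries κ) ^ (p ^ l) ∣ (ptF p Γ₀ l' + m • ptF p Γ₀ l).val :=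
      dvd_add_val hdy'' (dvd_nsmul_val hdy m)
    have h3 := coeff_add_val ((pow_dvd_pow _ h1.le).trans hdx) h2
    rw [PowerSeries.X_pow_dvd_iff.1 h _ hll2, PowerSeries.X_pow_dvd_iff.1 hdx _ h1,
      coeff_add_val hdy'' (dvd_nsmul_val hdy m), PowerSeries.X_pow_dvd_iff.1 hdy' _ hll2,
      coeff_nsmul_val hdy, ptF_val, PowerSeries.coeff_X_pow_self] at h3
    have hv : 1 ≤ v := by
      rcases Nat.eq_zero_or_pos v with rfl | h0
      · omega
      · exact h0
    have h4 : ((m + 1 : ℕ) : κ) = 0 := by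
      rw [CharP.cast_eq_zero_iff κ p, hM]
      exact (dvd_pow_self p (by omega)).mul_right _
    push_cast at h4
    have h5 : (m : κ) = 0 := by simpa using h3.symm
    rw [h5, zero_add] at h4
    exact one_ne_zero h4

end Honda

variable {p n : ℕ} [hp : Fact p.Prime] {Γ : FormalGroup (ZMod p)} {F : FormalGroup (E0 p n)}

/-- two elements `1 + S^l`, `1 + S^l'` of the Morava stabilizer group, `n ∤ l`, `l < l'`, act
differently on `E₀/I_{n-1}`. -/
theorem key_contra (hn : 2 ≤ n) (hΓ : IsHonda p n Γ) (hF : IsUniversalDeformation p n Γ F)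
    (hH : HeightAdapted p n F) {l l' : ℕ} (hll : l < l') (hnl : ¬ n ∣ l)
    {φ φ' : E0 p n →+* E0 p n} {g g' : PowerSeries (E0 p n)}
    (hg : P217.IsIso (F.map φ) F g) (hg' : P217.IsIso (F.map φ') F g')
    (hgr : g.map (red p n) = gser p (Γ.map (algebraMap (ZMod p) (GaloisField p n))) 1 l)
    (hgr' : g'.map (red p n) = gser p (Γ.map (algebraMap (ZMod p) (GaloisField p n))) 1 l')
    (hφ : (rho p n hn).comp φ = (rho p n hn).comp φ') : False := by
  have hΓ₀ := IsHonda.hondaLike (by omega) hΓ (GaloisField p n)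
    (algebraMap (ZMod p) (GaloisField p n))
  set Γ₀ := Γ.map (algebraMap (ZMod p) (GaloisField p n)) with hΓ0
  have i1 : Γ₀.IsComm := hΓ₀.comm
  have i2 : F.IsComm := hF.comm
  set G := F.map (rho p n hn) with hG
  have i3 : G.IsComm := inferInstance
  have h1 : P217.IsIso (F.map ((rho p n hn).comp φ)) G (PowerSeries.map (rho p n hn) g) := by
    have := hg.mapC (rho p n hn)
    rwa [C0.FG_map_map] at this
  have h1' : P217.IsIso (F.map ((rho p n hn).comp φ)) G (PowerSeries.map (rho p n hn) g') := by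
    have := hg'.mapC (rho p n hn)
    rwa [C0.FG_map_map, ← hφ] at this
  obtain ⟨k, hk, k1, k2⟩ := h1.symmC
  set T : PowerSeries (PowerSeries (GaloisField p n)) :=
    PowerSeries.subst k (PowerSeries.map (rho p n hn) g') with hT
  have hThom : IsHom G G T := hk.1.compC h1'.1
  have hTg : (PowerSeries.subst (PowerSeries.map (rho p n hn) g) T :
      PowerSeries (PowerSeries (GaloisField p n))) = PowerSeries.map (rho p n hn) g' := by
    rw [hT, PowerSeries.subst_comp_subst_apply (C0.hasSubst_of_cc hk.1.1)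
      (C0.hasSubst_of_cc h1.1.1), k1, PowerSeries.X_subst]
  -- approximate `T` by an integer
  obtain ⟨V, hV0, hV, e, he, hVe⟩ := exists_V hn hΓ hF hH
  have i4 : CharP (PowerSeries (GaloisField p n)) p := ps_charP _
  have hXne : (PowerSeries.X : PowerSeries (GaloisField p n)) ≠ 0 := PowerSeries.X_ne_zero
  obtain ⟨m, hm⟩ := endo_approx (p := p) (r := n - 1) (by omega) G hV0 hV
    (by rw [hVe]; exact mul_ne_zero he.ne_zero hXne)
    (by
      rw [hVe]
      intro hu
      have := (IsUnit.mul_iff.1 hu).2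
      rw [PowerSeries.isUnit_iff_constantCoeff, PowerSeries.constantCoeff_X] at this
      exact not_isUnit_zero this)
    (fun c hc => ps_fac he hVe c hc) (ps_fix hn) hThom (l + 1)
  have hdvd := PowerSeries.X_pow_dvd_iff.2 hm
  -- reduce to the residue field
  set cc : PowerSeries (GaloisField p n) →+* GaloisField p n := PowerSeries.constantCoeff with hcc
  have hGΓ : G.map cc = Γ₀ := by
    rw [hG, C0.FG_map_map, hcc, isHomoCC, hF.reduction]
  have hmapT : IsHom Γ₀ Γ₀ (T.map cc) := by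
    have := hThom.mapC cc
    rwa [hGΓ] at this
  have hdvd2 : (PowerSeries.X : PowerSeries (GaloisField p n)) ^ (p ^ (l + 1)) ∣
      (ptOf Γ₀ (T.map cc) hmapT.1 + m • ptX Γ₀).val := by
    rw [← map_ptOf_add cc G hGΓ T hThom.1 hmapT.1 m]
    have := map_dvd (PowerSeries.map cc) hdvd
    rwa [map_pow, PowerSeries.map_X] at this
  have hredmap : ∀ f : PowerSeries (E0 p n), PowerSeries.map cc (PowerSeries.map (rho p n hn) f) =
      PowerSeries.map (red p n) f := by
    intro f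
    rw [C0.ps_map_comp, hcc, isHomoCC]
  have hTg2 : (PowerSeries.subst (PowerSeries.map (red p n) g) (T.map cc) :
      PowerSeries (GaloisField p n)) = PowerSeries.map (red p n) g' := by
    rw [← hredmap, ← hredmap, ← hTg, C0.ps_map_subst _ h1.1.1]
  rw [hgr, hgr'] at hTg2
  -- substitute `γ_l`
  have hγ : IsHom Γ₀ Γ₀ (gser p Γ₀ 1 l) := (isIso_gser hΓ₀ 1 l (by
    rcases Nat.eq_zero_or_pos l with rfl | h0
    · exact absurd (dvd_zero n) hnl
    · exact h0)).1
  have hγ' : PowerSeries.constantCoeff (gser p Γ₀ 1 l') = 0 :=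
    (ptX Γ₀ + ptF p Γ₀ l').constantCoeff_val
  have hval := comp_eval (G := Γ₀) hmapT.1 hγ.1 hγ' hTg2 m
  have hval2 : ptOf Γ₀ (gser p Γ₀ 1 l') hγ' + m • ptOf Γ₀ (gser p Γ₀ 1 l) hγ.1 =
      (m + 1) • ptX Γ₀ + (ptF p Γ₀ l' + m • ptF p Γ₀ l) :=
    group_aux (ptX Γ₀) (ptF p Γ₀ l) (ptF p Γ₀ l') m
  rw [hval2] at hval
  refine honda_contra hΓ₀ hll hnl (m := m) ?_
  rw [← hval]
  obtain ⟨q, hq⟩ := hdvd2
  have hs : PowerSeries.HasSubst (gser p Γ₀ 1 l) := C0.hasSubst_of_cc hγ.1
  rw [hq, PowerSeries.subst_mul hs, PowerSeries.subst_pow hs, PowerSeries.subst_X hs]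
  exact (pow_dvd_pow_of_dvd (PowerSeries.X_dvd_iff.2 hγ.1) _).mul_right _

/-- **The action on the last stratum is infinite**: a subgroup of finite index of the extended
Morava stabilizer group (`n ≥ 2`) acts nontrivially on `E₀/I_{n-1}`. -/
theorem inf (hn : 2 ≤ n) (hΓ : LT.IsHonda p n Γ) (hF : LT.IsUniversal p n Γ F)
    (hH : LT.HeightAdapted p n F) (U : Subgroup (RingAut (P217.E0 p n)))
    (hfin : U.relIndex (LT.actionGroup p n Γ F) ≠ 0) :
    ∃ φ ∈ U, ∃ x, rho p n hn (φ x) ≠ rho p n hn x := by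
  by_contra hcon
  push Not at hcon
  have hF' := LTC.isUniversal_iff.1 hF
  have hH' := LTC.heightAdapted_iff.1 hH
  have hΓ' := LTC.isHonda_iff.1 hΓ
  obtain ⟨hex, hJ⟩ := LTC.main (by omega) hΓ hF hH
  have hΓ₀ := IsHonda.hondaLike (by omega) hΓ' (GaloisField p n)
    (algebraMap (ZMod p) (GaloisField p n))
  set Γ₀ := Γ.map (algebraMap (ZMod p) (GaloisField p n)) with hΓ0
  set K := LT.actionGroup p n Γ F with hK
  have hiso : ∀ k : ℕ, LT.IsIso (LT.base p n Γ) (LT.base p n Γ) (gser p Γ₀ 1 (n * k + 1)) :=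
    fun k => LTC.isIso_iff.2 (isIso_gser hΓ₀ 1 (n * k + 1) (by omega))
  choose φ hφ using fun k : ℕ => hex (RingEquiv.refl _) _ (hiso k)
  have hacts : ∀ k, LT.Acts p n Γ F (RingEquiv.refl _) (gser p Γ₀ 1 (n * k + 1))
      (φ k : P217.E0 p n →+* P217.E0 p n) := fun k => (hφ k _).2 rfl
  have hmem : ∀ k, (φ k : RingAut (P217.E0 p n)) ∈ K := fun k =>
    (H260.mem_actionGroup hF' _).2 ⟨_, _, hacts k⟩
  have hVf : (U.subgroupOf K).FiniteIndex := ⟨hfin⟩
  have : Finite (K ⧸ U.subgroupOf K) := inferInstance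
  obtain ⟨k, k', hkk, heq⟩ := Finite.exists_ne_map_eq_of_infinite
    (fun k : ℕ => (QuotientGroup.mk (⟨φ k, hmem k⟩ : K) : K ⧸ U.subgroupOf K))
  -- wlog k < k'
  have key : ∀ k k' : ℕ, k < k' →
      (QuotientGroup.mk (⟨φ k, hmem k⟩ : K) : K ⧸ U.subgroupOf K) =
        QuotientGroup.mk (⟨φ k', hmem k'⟩ : K) → False := by
    intro k k' hlt heq
    rw [QuotientGroup.eq, Subgroup.mem_subgroupOf] at heq
    have hu : (φ k : RingAut (P217.E0 p n))⁻¹ * φ k' ∈ U := heq
    obtain ⟨-, g, a1, a2, a3⟩ := hacts k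
    obtain ⟨-, g', b1, b2, b3⟩ := hacts k'
    refine key_contra hn hΓ' hF' hH' (l := n * k + 1) (l' := n * k' + 1) ?_ ?_
      (LTC.isIso_iff.1 a2) (LTC.isIso_iff.1 b2) a3 b3 ?_
    · have := Nat.mul_lt_mul_of_pos_left hlt (show 0 < n by omega)
      omega
    · intro hd
      have h1 : n ∣ 1 := (Nat.dvd_add_right (dvd_mul_right n k)).1 hd
      have := Nat.le_of_dvd one_pos h1
      omega
    · -- the two actions agree modulo `I_{n-1}`
      have hinv : ∀ ψ ∈ K, ∀ x ∈ P217.heightIdeal p n (n - 1),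
          ψ x ∈ P217.heightIdeal p n (n - 1) := by
        intro ψ hψ x hx
        obtain ⟨σ, γ, hψ'⟩ := (H260.mem_actionGroup hF' ψ).1 hψ
        have h1 := (((hJ _).1).2 ⟨n - 1, by omega, rfl⟩).2 σ γ _ hψ'
        have h2 : (ψ : P217.E0 p n →+* P217.E0 p n) x ∈
            (LT.heightIdeal p n (n - 1)).map (ψ : P217.E0 p n →+* P217.E0 p n) :=
          Ideal.mem_map_of_mem _ hx
        rw [h1] at h2
        exact h2
      ext1 x
      have h2 := hcon _ hu x
      have h3 : ((φ k : RingAut (P217.E0 p n))⁻¹ * φ k') x - x ∈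
          P217.heightIdeal p n (n - 1) := by
        rw [← ker_rho hn, RingHom.mem_ker, map_sub, h2, sub_self]
      have h4 := hinv _ (hmem k) _ h3
      rw [map_sub] at h4
      have h5 : (φ k : RingAut (P217.E0 p n)) (((φ k : RingAut (P217.E0 p n))⁻¹ * φ k') x) =
          φ k' x := by
        change ((φ k : RingAut (P217.E0 p n)) * ((φ k : RingAut (P217.E0 p n))⁻¹ * φ k')) x = _
        rw [mul_inv_cancel_left]
      rw [h5, ← ker_rho hn, RingHom.mem_ker, map_sub, sub_eq_zero] at h4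
      exact h4.symm
  rcases lt_or_gt_of_ne hkk with h | h
  · exact key k k' h heq
  · exact key k' k h heq.symm

end Vale.Agent.P261.H432
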