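import Vale.Agent.P261.H432.NoInv
import Vale.Agent.P261.H432.AbsK

/-!
# P261 (helper432): invariant fractions of `E₀/I_h` are constants
-/

namespace Vale.Agent.P261.H432

open Vale.Agent.P217

variable {p n : ℕ} [hp : Fact p.Prime] {Γ : FormalGroup (ZMod p)} {F : FormalGroup (E0 p n)}

/-- the Hasse invariant `v` is a semi-invariant. -/
theorem v_rel {B : Type*} [CommRing B] (π : E0 p n →+* B) {φ : E0 p n →+* E0 p n}
    {ψ : B →+* B} (hψ : ψ.comp π = π.comp φ) {g : PowerSeries (E0 p n)}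
    (hg : P217.IsIso (F.map φ) F g) {Q : ℕ} (hQ : Q ≠ 0) {V : PowerSeries B}
    (hV0 : PowerSeries.constantCoeff V = 0)
    (hV : multSeries (F.map π) p = PowerSeries.subst (PowerSeries.X ^ Q : PowerSeries B) V) :
    π (PowerSeries.coeff 1 g) * ψ (PowerSeries.coeff 1 V) =
      PowerSeries.coeff 1 V * π (PowerSeries.coeff 1 g) ^ Q := by
  have h1 := (hg.mapC π).1
  have h2 : (F.map φ).map π = (F.map π).map ψ := by
    rw [C0.FG_map_map, C0.FG_map_map, hψ]
  rw [h2] at h1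
  have h3 := h1.coeff_one_rel (VF := V.map ψ) (VG := V) hQ p ?_ hV0 ?_ hV
  · rw [PowerSeries.coeff_map, PowerSeries.coeff_map] at h3
    exact h3
  · rw [← PowerSeries.coeff_zero_eq_constantCoeff_apply, PowerSeries.coeff_map,
      PowerSeries.coeff_zero_eq_constantCoeff_apply, hV0, map_zero]
  · rw [multSeries_map, hV]
    have h2 := PowerSeries.map_subst (h := ψ) (PowerSeries.HasSubst.X_pow (R := B) hQ) V
    refine h2.trans ?_
    congr 1
    change PowerSeries.map ψ (PowerSeries.X ^ Q) = _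
    rw [map_pow, PowerSeries.map_X]

/-- the induced endomorphism of `E₀/I_h`. -/
theorem exists_descH (hn : 1 ≤ n) (hΓ : LT.IsHonda p n Γ) (hF : LT.IsUniversal p n Γ F)
    (hH : LT.HeightAdapted p n F) (h : ℕ) (hh : 1 ≤ h) (hhn : h ≤ n) {φ : RingAut (E0 p n)}
    (hφ : φ ∈ LT.actionGroup p n Γ F) :
    ∃ ψ : MvPowerSeries (Fin (n - h)) (GaloisField p n) →+*
        MvPowerSeries (Fin (n - h)) (GaloisField p n),
      ∀ x, ψ (piH p n h hh hhn x) = piH p n h hh hhn (φ x) := by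
  have hs := piH_surjective (p := p) (n := n) h hh hhn
  have hker : RingHom.ker (piH p n h hh hhn) ≤
      RingHom.ker ((piH p n h hh hhn).comp (φ : E0 p n →+* E0 p n)) := by
    intro x hx
    rw [ker_piH] at hx
    rw [RingHom.mem_ker, RingHom.comp_apply, ← RingHom.mem_ker, ker_piH]
    exact mem_inv hn hΓ hF hH hhn hφ hx
  refine ⟨(piH p n h hh hhn).liftOfSurjective hs
    ⟨(piH p n h hh hhn).comp (φ : E0 p n →+* E0 p n), hker⟩, fun x => ?_⟩
  exact RingHom.congr_fun (RingHom.liftOfSurjective_comp _ hs ⟨_, hker⟩) x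

theorem descH_injective (hn : 1 ≤ n) (hΓ : LT.IsHonda p n Γ) (hF : LT.IsUniversal p n Γ F)
    (hH : LT.HeightAdapted p n F) (h : ℕ) (hh : 1 ≤ h) (hhn : h ≤ n) {φ : RingAut (E0 p n)}
    (hφ : φ ∈ LT.actionGroup p n Γ F)
    {ψ : MvPowerSeries (Fin (n - h)) (GaloisField p n) →+*
        MvPowerSeries (Fin (n - h)) (GaloisField p n)}
    (hψ : ∀ x, ψ (piH p n h hh hhn x) = piH p n h hh hhn (φ x)) :
    Function.Injective ψ := by
  rw [injective_iff_map_eq_zero]
  intro y hy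
  obtain ⟨x, rfl⟩ := piH_surjective (p := p) (n := n) h hh hhn y
  rw [hψ, ← RingHom.mem_ker, ker_piH] at hy
  rw [← RingHom.mem_ker, ker_piH]
  have h1 := mem_inv hn hΓ hF hH hhn ((LT.actionGroup p n Γ F).inv_mem hφ) hy
  have h2 : φ⁻¹ (φ x) = x := φ.symm_apply_apply x
  rwa [h2] at h1

theorem descH_cc (h : ℕ) (hh : 1 ≤ h) (hhn : h ≤ n) {φ : RingAut (E0 p n)}
    {σ : GaloisField p n ≃+* GaloisField p n} (hσ : ∀ x, red p n (φ x) = σ (red p n x))
    {ψ : MvPowerSeries (Fin (n - h)) (GaloisField p n) →+*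
        MvPowerSeries (Fin (n - h)) (GaloisField p n)}
    (hψ : ∀ x, ψ (piH p n h hh hhn x) = piH p n h hh hhn (φ x))
    (y : MvPowerSeries (Fin (n - h)) (GaloisField p n)) :
    MvPowerSeries.constantCoeff (ψ y) = σ (MvPowerSeries.constantCoeff y) := by
  obtain ⟨x, rfl⟩ := piH_surjective (p := p) (n := n) h hh hhn y
  rw [hψ, constantCoeff_piH, constantCoeff_piH, hσ]

theorem descH_C (hn : 1 ≤ n) {τ : Type*} {σ : GaloisField p n ≃+* GaloisField p n}
    {ψ : MvPowerSeries τ (GaloisField p n) →+* MvPowerSeries τ (GaloisField p n)}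
    (hψ : ∀ y, MvPowerSeries.constantCoeff (ψ y) = σ (MvPowerSeries.constantCoeff y))
    (c : GaloisField p n) : ψ (MvPowerSeries.C c) = MvPowerSeries.C (σ c) := by
  have h1 : (ψ (MvPowerSeries.C c)) ^ p ^ n = ψ (MvPowerSeries.C c) := by
    rw [← map_pow, ← map_pow, galois_pow hn]
  have h2 := eq_C_of_pow_eq (p := p) hn h1
  rw [h2, hψ, MvPowerSeries.constantCoeff_C]

/-- the set of the endomorphisms of `E₀/I_h` induced by `U`. -/
def SH (p n : ℕ) [Fact p.Prime] (U : Subgroup (RingAut (E0 p n))) (h : ℕ) (hh : 1 ≤ h)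
    (hhn : h ≤ n) : Set (MvPowerSeries (Fin (n - h)) (GaloisField p n) →+*
      MvPowerSeries (Fin (n - h)) (GaloisField p n)) :=
  {ψ | ∃ φ ∈ U, ∀ x, ψ (piH p n h hh hhn x) = piH p n h hh hhn (φ x)}

/-- the data for `E₀/I_h`, `1 ≤ h < n`. -/
theorem uData (hΓ : LT.IsHonda p n Γ) (hF : LT.IsUniversal p n Γ F)
    (hH : LT.HeightAdapted p n F) (U : Subgroup (RingAut (E0 p n)))
    (hU : U ≤ LT.actionGroup p n Γ F) (hfin : U.relIndex (LT.actionGroup p n Γ F) ≠ 0)
    (h : ℕ) (hh : 1 ≤ h) (hhn : h < n) :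
    UData (MvPowerSeries (Fin (n - h)) (GaloisField p n)) (SH p n U h hh hhn.le)
      (MvPowerSeries.X (⟨0, by omega⟩ : Fin (n - h))) := by
  have hn : 1 ≤ n := by omega
  have hdom : IsDomain (MvPowerSeries (Fin (n - h)) (GaloisField p n)) :=
    NoZeroDivisors.to_isDomain _
  have hs := piH_surjective (p := p) (n := n) h hh hhn.le
  have hF' := LTC.isUniversal_iff.1 hF
  have hspan : Ideal.span {(MvPowerSeries.X (⟨0, by omega⟩ : Fin (n - h)) :
      MvPowerSeries (Fin (n - h)) (GaloisField p n))} =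
      (heightIdeal p n (h + 1)).map (piH p n h hh hhn.le) := by
    rw [map_piH_heightIdeal h hh hhn.le (h + 1) (by omega)]
    congr 1
    ext x
    simp only [Set.mem_ofPred_eq, Set.mem_singleton_iff]
    constructor
    · rintro rfl
      exact ⟨_, by simp, rfl⟩
    · rintro ⟨j, hj, rfl⟩
      congr 1
      ext
      change (j : ℕ) = 0
      omega
  have hprime : Prime (MvPowerSeries.X (⟨0, by omega⟩ : Fin (n - h)) :
      MvPowerSeries (Fin (n - h)) (GaloisField p n)) := by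
    rw [← Ideal.span_singleton_prime]
    · rw [hspan]
      have := isPrime_heightIdeal (p := p) hn (h + 1) (by omega)
      refine Ideal.map_isPrime_of_surjective hs ?_
      rw [ker_piH]
      exact H260.heightIdeal_mono (by omega)
    · intro h0
      have h1 := congrArg (MvPowerSeries.coeff (Finsupp.single (⟨0, by omega⟩ : Fin (n - h)) 1)) h0
      rw [MvPowerSeries.coeff_index_single_self_X, map_zero] at h1
      exact one_ne_zero h1
  refine ⟨hprime, ?_, ?_, ?_⟩
  · rintro ψ ⟨φ, hφ, hψ⟩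
    exact descH_injective hn hΓ hF hH h hh hhn.le (hU hφ) hψ
  · intro J hJ hJ0
    set J' : Ideal (E0 p n) := J.comap (piH p n h hh hhn.le) with hJ'
    have hst : ∀ φ ∈ U, ∀ x ∈ J', φ x ∈ J' := by
      intro φ hφ x hx
      obtain ⟨ψ, hψ⟩ := exists_descH hn hΓ hF hH h hh hhn.le (hU hφ)
      rw [hJ', Ideal.mem_comap, ← hψ]
      exact hJ ψ ⟨φ, hφ, hψ⟩ _ hx
    have hrad : ∀ φ ∈ U, J'.radical.map (φ : E0 p n →+* E0 p n) ≤ J'.radical := by
      intro φ hφ
      rw [Ideal.map_le_iff_le_comap]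
      rintro x ⟨k, hk⟩
      refine ⟨k, ?_⟩
      rw [← map_pow]
      exact hst φ hφ _ hk
    have hinv : LT.InvariantUnder U J'.radical := by
      intro φ hφ
      refine le_antisymm (hrad φ hφ) ?_
      intro x hx
      have h1 : φ⁻¹ x ∈ J'.radical :=
        hrad φ⁻¹ (U.inv_mem hφ) (Ideal.mem_map_of_mem ((φ⁻¹ : RingAut (E0 p n)) :
          E0 p n →+* E0 p n) hx)
      have h2 := Ideal.mem_map_of_mem (φ : E0 p n →+* E0 p n) h1
      have h3 : (φ : E0 p n →+* E0 p n) (φ⁻¹ x) = x := φ.apply_symm_apply x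
      rwa [h3] at h2
    obtain ⟨hcl, -⟩ := H260.main_subgroup.{0} hn hΓ hF hH U hU hfin
    have h1 := ((hcl J'.radical).2).1 ⟨Ideal.radical_isRadical _, hinv⟩
    -- `u_h` is in the radical
    obtain ⟨b, hbJ, hb0⟩ := Submodule.exists_mem_ne_zero_of_ne_bot hJ0
    obtain ⟨b', rfl⟩ := hs b
    have hb' : b' ∉ heightIdeal p n h := by
      intro h2
      rw [← ker_piH h hh hhn.le] at h2
      exact hb0 h2
    have hle : heightIdeal p n (h + 1) ≤ J'.radical := by
      rcases h1 with h1 | ⟨j, hj, h1⟩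
      · rw [h1]; exact le_top
      · have h1' : J'.radical = heightIdeal p n j := h1
        rw [h1']
        refine H260.heightIdeal_mono ?_
        by_contra hlt
        apply hb'
        have h2 : b' ∈ J'.radical := Ideal.le_radical (by rwa [hJ', Ideal.mem_comap])
        rw [h1'] at h2
        exact H260.heightIdeal_mono (by omega) h2
    have hu : MvPowerSeries.X (embH n h hh hhn.le ⟨0, by omega⟩) ∈ heightIdeal p n (h + 1) := by
      rw [heightIdeal_of_pos (by omega)]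
      refine Ideal.subset_span (Or.inr ⟨_, ?_, rfl⟩)
      rw [val_embH]
      simp only
      omega
    obtain ⟨k, hk⟩ := hle hu
    refine ⟨k, ?_⟩
    rw [hJ', Ideal.mem_comap, map_pow, piH_X_emb] at hk
    exact hk
  · rintro ψ ⟨φ, hφ, hψ⟩
    obtain ⟨A, hA⟩ := exists_famFG' hn (IsHonda.hondaLike hn (LTC.isHonda_iff.1 hΓ) _ _) hF'
      (LTC.heightAdapted_iff.1 hH) h hh hhn
    obtain ⟨σ, g, hσ, hg⟩ := exists_acts hF (hU hφ)
    have hrel := v_rel (piH p n h hh hhn.le) (ψ := ψ) (RingHom.ext hψ) hg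
      (pow_ne_zero h hp.out.ne_zero) A.V_zero (by rw [← hA]; exact A.series)
    obtain ⟨e, he, hV⟩ := A.V_one
    rw [hV, map_mul] at hrel
    have hg1 : IsUnit (piH p n h hh hhn.le (PowerSeries.coeff 1 g)) := hg.2.map _
    obtain ⟨g1, hg1'⟩ := hg1
    obtain ⟨e', he'⟩ := he.map ψ
    obtain ⟨e'', he''⟩ := he
    rw [← hg1', ← he', ← he''] at hrel
    refine ⟨(e'' : MvPowerSeries (Fin (n - h)) (GaloisField p n)) *
      (g1 : MvPowerSeries (Fin (n - h)) (GaloisField p n)) ^ (p ^ h) *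
      (↑(g1⁻¹) * ↑(e'⁻¹)), ((Units.isUnit _).mul ((Units.isUnit _).pow _)).mul
        ((Units.isUnit _).mul (Units.isUnit _)), ?_⟩
    have h1 : (g1 : MvPowerSeries (Fin (n - h)) (GaloisField p n)) * ↑(g1⁻¹) = 1 :=
      Units.mul_inv _
    have h1' : (e' : MvPowerSeries (Fin (n - h)) (GaloisField p n)) * ↑(e'⁻¹) = 1 :=
      Units.mul_inv _
    apply mul_left_cancel₀ (mul_ne_zero (Units.isUnit g1).ne_zero (Units.isUnit e').ne_zero)
    linear_combination hrel - (e'' : MvPowerSeries (Fin (n - h)) (GaloisField p n)) *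
      (g1 : MvPowerSeries (Fin (n - h)) (GaloisField p n)) ^ (p ^ h) *
      MvPowerSeries.X (⟨0, by omega⟩ : Fin (n - h)) * h1 -
      (e'' : MvPowerSeries (Fin (n - h)) (GaloisField p n)) *
      (g1 : MvPowerSeries (Fin (n - h)) (GaloisField p n)) ^ (p ^ h) *
      MvPowerSeries.X (⟨0, by omega⟩ : Fin (n - h)) * (g1 * ↑(g1⁻¹)) * h1'

end Vale.Agent.P261.H432
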