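import Vale.Agent.P261.H432.LemmaK

/-!
# P261 (helper432): invariant fractions of `E₀/I_h` are constants (conclusion)
-/

namespace Vale.Agent.P261.H432

open Vale.Agent.P217

variable {p n : ℕ} [hp : Fact p.Prime] {Γ : FormalGroup (ZMod p)} {F : FormalGroup (E0 p n)}

/-- the invariants of `E₀/I_h`, `1 ≤ h < n`, are constants. -/
theorem inv_const (hΓ : LT.IsHonda p n Γ) (hF : LT.IsUniversal p n Γ F)
    (hH : LT.HeightAdapted p n F) (U : Subgroup (RingAut (E0 p n)))
    (hU : U ≤ LT.actionGroup p n Γ F) (hfin : U.relIndex (LT.actionGroup p n Γ F) ≠ 0)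
    (h : ℕ) (hh : 1 ≤ h) (hhn : h < n) (z : MvPowerSeries (Fin (n - h)) (GaloisField p n))
    (hz : ∀ ψ ∈ SH p n U h hh hhn.le, ψ z = z) :
    z = MvPowerSeries.C (MvPowerSeries.constantCoeff z) := by
  by_contra hne
  have hn : 1 ≤ n := by omega
  have hn2 : 2 ≤ n := by omega
  have hdom : IsDomain (MvPowerSeries (Fin (n - h)) (GaloisField p n)) :=
    NoZeroDivisors.to_isDomain _
  have hs := piH_surjective (p := p) (n := n) h hh hhn.le
  have hF' := LTC.isUniversal_iff.1 hF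
  have hH' := LTC.heightAdapted_iff.1 hH
  have hΓ' := LTC.isHonda_iff.1 hΓ
  have hUD := uData hΓ hF hH U hU hfin h hh hhn
  set c0 := MvPowerSeries.constantCoeff z with hc0
  set r := z - MvPowerSeries.C c0 with hr
  have hr0 : r ≠ 0 := sub_ne_zero.2 hne
  have hrr : ∀ ψ ∈ SH p n U h hh hhn.le, ψ r = r := by
    rintro ψ ⟨φ, hφ, hψ⟩
    obtain ⟨σ, g, hσ, -⟩ := exists_acts hF (hU hφ)
    have hcc := descH_cc h hh hhn.le hσ hψ
    have h1 : σ c0 = c0 := by
      have h2 := hcc z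
      rw [hz ψ ⟨φ, hφ, hψ⟩] at h2
      exact h2.symm
    rw [hr, map_sub, hz ψ ⟨φ, hφ, hψ⟩, descH_C hn hcc, h1]
  obtain ⟨m, w, hw, hrw⟩ := hUD.semi hr0 (fun ψ hψ => by rw [hrr ψ hψ])
  have hm : 1 ≤ m := by
    rcases Nat.eq_zero_or_pos m with h0 | h0
    · exfalso
      rw [h0, pow_zero, mul_one] at hrw
      have h1 : MvPowerSeries.constantCoeff r = 0 := by
        rw [hr, map_sub, MvPowerSeries.constantCoeff_C, hc0, sub_self]
      rw [hrw] at h1
      exact (hw.map MvPowerSeries.constantCoeff).ne_zero h1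
    · exact h0
  -- the Hasse invariants
  obtain ⟨A, hA⟩ := exists_famFG' hn (IsHonda.hondaLike hn hΓ' _ _) hF' hH' h hh hhn
  obtain ⟨e, he, hV⟩ := A.V_one
  obtain ⟨V', hV0', hVs', e1, he1, hVe1⟩ := exists_V hn2 hΓ' hF' hH'
  set v := PowerSeries.coeff 1 A.V with hv
  obtain ⟨w', hw', hrw'⟩ : ∃ w', IsUnit w' ∧ r = w' * v ^ m := by
    obtain ⟨e', rfl⟩ := he
    refine ⟨w * (↑(e'⁻¹) : MvPowerSeries (Fin (n - h)) (GaloisField p n)) ^ m,
      hw.mul ((Units.isUnit _).pow m), ?_⟩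
    rw [hV, mul_pow, hrw]
    have h1 : (↑(e'⁻¹) : MvPowerSeries (Fin (n - h)) (GaloisField p n)) ^ m *
        (e' : MvPowerSeries (Fin (n - h)) (GaloisField p n)) ^ m = 1 := by
      rw [← mul_pow, Units.inv_mul, one_pow]
    have h3 : A.i0 = (⟨0, by omega⟩ : Fin (n - h)) := rfl
    linear_combination (-w * MvPowerSeries.X (⟨0, by omega⟩ : Fin (n - h)) ^ m) * h1
  have hv0 : v ≠ 0 := by
    intro h0
    rw [h0, zero_pow (by omega), mul_zero] at hrw'
    exact hr0 hrw'
  obtain ⟨a, ha⟩ := hs w'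
  obtain ⟨b, hb⟩ := rho_surjective (p := p) hn2 (PowerSeries.coeff 1 V')
  set P := p ^ (n - 1) with hP
  set Q := p ^ h with hQ
  have hP2 : 1 < P := Nat.one_lt_pow (by omega) hp.out.one_lt
  have hQ2 : 1 < Q := Nat.one_lt_pow (by omega) hp.out.one_lt
  -- an invariant of `E₀/I_{n-1}`
  have hinv := noInv hn2 hΓ hF hH U hU hfin (b ^ ((Q - 1) * m) * a ^ (P - 1)) (by
    intro φ hφ
    obtain ⟨ψ, hψ⟩ := exists_descH hn hΓ hF hH h hh hhn.le (hU hφ)
    obtain ⟨ψ', hψ'⟩ := exists_desc hn2 hΓ hF hH (hU hφ)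
    obtain ⟨σ, g, hσ, hg⟩ := exists_acts hF (hU hφ)
    have hrel := v_rel (piH p n h hh hhn.le) (ψ := ψ) (RingHom.ext hψ) hg
      (pow_ne_zero h hp.out.ne_zero) A.V_zero (by rw [← hA]; exact A.series)
    have hrel' := v_rel (rho p n hn2) (ψ := ψ') (RingHom.ext hψ') hg
      (pow_ne_zero (n - 1) hp.out.ne_zero) hV0' hVs'
    rw [← hP, ← hb, hψ'] at hrel'
    rw [← hv, ← hQ] at hrel
    have hg1 : IsUnit (PowerSeries.coeff 1 g) := hg.2
    -- `ψ(v) = v g₁^(Q-1)`
    have h1 : ψ v = v * piH p n h hh hhn.le (PowerSeries.coeff 1 g) ^ (Q - 1) := by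
      have h2 : piH p n h hh hhn.le (PowerSeries.coeff 1 g) ≠ 0 := (hg1.map _).ne_zero
      apply mul_left_cancel₀ h2
      rw [hrel]
      conv_lhs => rw [show Q = (Q - 1) + 1 by omega, pow_succ]
      ring
    have h1' : rho p n hn2 (φ b) = rho p n hn2 b *
        rho p n hn2 (PowerSeries.coeff 1 g) ^ (P - 1) := by
      have h2 : rho p n hn2 (PowerSeries.coeff 1 g) ≠ 0 := (hg1.map _).ne_zero
      apply mul_left_cancel₀ h2
      rw [hrel']
      conv_lhs => rw [show P = (P - 1) + 1 by omega, pow_succ]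
      ring
    -- `φ(a) g₁^((Q-1)m) = a` modulo `I_h`
    have h2 : piH p n h hh hhn.le (φ a * PowerSeries.coeff 1 g ^ ((Q - 1) * m) - a) = 0 := by
      have h3 := hrr ψ ⟨φ, hφ, hψ⟩
      rw [hrw', map_mul, map_pow, h1, mul_pow, ← pow_mul] at h3
      rw [map_sub, map_mul, map_pow, ← hψ, ha, sub_eq_zero]
      apply mul_right_cancel₀ (pow_ne_zero m hv0)
      linear_combination h3
    rw [← RingHom.mem_ker, ker_piH] at h2
    have h3 := H260.heightIdeal_mono (p := p) (n := n) (h := h) (h' := n - 1) (by omega) h2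
    rw [← ker_rho hn2, RingHom.mem_ker, map_sub, sub_eq_zero, map_mul, map_pow] at h3
    rw [map_mul, map_mul, map_pow, map_pow, map_pow, map_pow, map_mul, map_pow, map_pow, h1',
      mul_pow, ← h3, mul_pow]
    ring)
  have hrb : rho p n hn2 b ≠ 0 := by
    rw [hb, hVe1]
    exact mul_ne_zero he1.ne_zero PowerSeries.X_ne_zero
  have hredb : red p n b = 0 := by
    rw [← constantCoeff_rho hn2, hb, hVe1, map_mul, PowerSeries.constantCoeff_X, mul_zero]
  have hra : rho p n hn2 a ≠ 0 := by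
    intro h0
    have h1 : red p n a = 0 := by rw [← constantCoeff_rho hn2, h0, map_zero]
    rw [← constantCoeff_piH h hh hhn.le, ha] at h1
    exact (hw'.map MvPowerSeries.constantCoeff).ne_zero h1
  have hpos : (Q - 1) * m ≠ 0 := Nat.mul_ne_zero (by omega) (by omega)
  rw [map_mul (red p n), map_pow (red p n), hredb, zero_pow hpos, zero_mul, map_zero, map_mul,
    map_pow, map_pow] at hinv
  exact (mul_ne_zero (pow_ne_zero _ hrb) (pow_ne_zero _ hra)) hinv

/-- **Lemma K**: the invariant fractions of `E₀/I_h`, `1 ≤ h ≤ n`, are constants. -/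
theorem lemmaK (hΓ : LT.IsHonda p n Γ) (hF : LT.IsUniversal p n Γ F)
    (hH : LT.HeightAdapted p n F) (U : Subgroup (RingAut (E0 p n)))
    (hU : U ≤ LT.actionGroup p n Γ F) (hfin : U.relIndex (LT.actionGroup p n Γ F) ≠ 0)
    (h : ℕ) (hh : 1 ≤ h) (hhn : h ≤ n)
    (a b : MvPowerSeries (Fin (n - h)) (GaloisField p n)) (hb : b ≠ 0)
    (hab : ∀ ψ ∈ SH p n U h hh hhn, ψ a * b = a * ψ b) :
    ∃ c : GaloisField p n, a = MvPowerSeries.C c * b := by
  have hdom : IsDomain (MvPowerSeries (Fin (n - h)) (GaloisField p n)) :=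
    NoZeroDivisors.to_isDomain _
  rcases eq_or_lt_of_le hhn with heq | hlt
  · -- `E₀/I_n` is a field
    have hemp : IsEmpty (Fin (n - h)) := by
      rw [heq, Nat.sub_self]
      exact Fin.isEmpty'
    have hconst : ∀ x : MvPowerSeries (Fin (n - h)) (GaloisField p n),
        x = MvPowerSeries.C (MvPowerSeries.constantCoeff x) := by
      intro x
      ext d
      rw [Subsingleton.elim d 0, MvPowerSeries.coeff_zero_C]
      rfl
    have hb1 : MvPowerSeries.constantCoeff b ≠ 0 := by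
      intro h0
      apply hb
      rw [hconst b, h0, map_zero]
    refine ⟨MvPowerSeries.constantCoeff a * (MvPowerSeries.constantCoeff b)⁻¹, ?_⟩
    conv_lhs => rw [hconst a]
    conv_rhs => rw [hconst b]
    rw [← map_mul, MvPowerSeries.constantCoeff_C, mul_assoc, inv_mul_cancel₀ hb1, mul_one]
  · by_cases ha : a = 0
    · exact ⟨0, by rw [ha, map_zero, zero_mul]⟩
    have hUD := uData hΓ hF hH U hU hfin h hh hlt
    rcases hUD.pair ha hb hab with ⟨z, hz⟩ | ⟨z, hz⟩
    · have h1 := inv_const hΓ hF hH U hU hfin h hh hlt z (by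
        intro ψ hψ
        have h2 := hab ψ hψ
        have hb' : ψ b ≠ 0 := fun h0 => hb (hUD.inj ψ hψ (by rw [h0, map_zero]))
        rw [hz, map_mul] at h2
        apply mul_left_cancel₀ (mul_ne_zero hb' hb)
        linear_combination h2)
      exact ⟨MvPowerSeries.constantCoeff z, by rw [← h1, mul_comm]; exact hz⟩
    · have h1 := inv_const hΓ hF hH U hU hfin h hh hlt z (by
        intro ψ hψ
        have h2 := hab ψ hψ
        have ha' : ψ a ≠ 0 := fun h0 => ha (hUD.inj ψ hψ (by rw [h0, map_zero]))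
        rw [hz, map_mul] at h2
        apply mul_left_cancel₀ (mul_ne_zero ha' ha)
        linear_combination -h2)
      set c := MvPowerSeries.constantCoeff z with hc
      have hc0 : c ≠ 0 := by
        intro h0
        rw [h0, map_zero] at h1
        rw [h1, mul_zero] at hz
        exact hb hz
      refine ⟨c⁻¹, ?_⟩
      rw [hz, h1, mul_comm a, ← mul_assoc, ← map_mul, inv_mul_cancel₀ hc0, map_one, one_mul]

/-- the Teichmüller constants. -/
noncomputable def teich (p n : ℕ) [Fact p.Prime] (c : GaloisField p n) : E0 p n :=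
  MvPowerSeries.C (WittVector.teichmuller p c)

theorem piH_teich (h : ℕ) (hh : 1 ≤ h) (hhn : h ≤ n) (c : GaloisField p n) :
    piH p n h hh hhn (teich p n c) = MvPowerSeries.C c := by
  classical
  ext d
  rw [coeff_piH, teich, MvPowerSeries.coeff_C, MvPowerSeries.coeff_C]
  by_cases hd : d = 0
  · rw [hd, Finsupp.embDomain_zero, if_pos rfl, if_pos rfl, WittVector.teichmuller_coeff_zero]
  · rw [if_neg hd, if_neg]
    · exact WittVector.zero_coeff p _ 0
    · intro h0
      exact hd ((Finsupp.embDomain_eq_zero).1 h0)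

/-- **Lemma K** on the level of `E₀`. -/
theorem lemmaK' (hΓ : LT.IsHonda p n Γ) (hF : LT.IsUniversal p n Γ F)
    (hH : LT.HeightAdapted p n F) (U : Subgroup (RingAut (E0 p n)))
    (hU : U ≤ LT.actionGroup p n Γ F) (hfin : U.relIndex (LT.actionGroup p n Γ F) ≠ 0)
    (h : ℕ) (hh : 1 ≤ h) (hhn : h ≤ n) (a b : E0 p n) (hb : b ∉ heightIdeal p n h)
    (hab : ∀ φ ∈ U, φ a * b - a * φ b ∈ heightIdeal p n h) :
    ∃ c : GaloisField p n, a - teich p n c * b ∈ heightIdeal p n h := by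
  obtain ⟨c, hc⟩ := lemmaK hΓ hF hH U hU hfin h hh hhn (piH p n h hh hhn a)
    (piH p n h hh hhn b) (by rwa [Ne, ← RingHom.mem_ker, ker_piH]) (by
    rintro ψ ⟨φ, hφ, hψ⟩
    have h1 := hab φ hφ
    rw [← ker_piH h hh hhn, RingHom.mem_ker, map_sub, map_mul, map_mul, ← hψ, ← hψ,
      sub_eq_zero] at h1
    exact h1)
  refine ⟨c, ?_⟩
  rw [← ker_piH h hh hhn, RingHom.mem_ker, map_sub, map_mul, hc, piH_teich, sub_self]

end Vale.Agent.P261.H432
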