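import Vale.Agent.P261.H432.Fam

/-!
# P261 (helper432): automorphisms of `κ[[X]]` fixing a nonconstant series
-/

namespace Vale.Agent.P261.H432

open Vale.Agent.P217 PowerSeries

section Abs

variable {κ : Type*} [Field κ]

/-- first order Taylor expansion of a ring endomorphism. -/
theorem taylor (ψ : κ⟦X⟧ →+* κ⟦X⟧) (hC : ∀ c, ψ (C c) = C c)
    (h0 : constantCoeff (ψ X) = 0) (hδ : ψ X - X ≠ 0) (a : κ⟦X⟧) :
    (ψ X - X) ^ 2 ∣ ψ a - a - derivative κ a * (ψ X - X) := by
  set δ := ψ X - X with hδdef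
  have hX : (X : κ⟦X⟧) ∣ ψ X := X_dvd_iff.2 h0
  obtain ⟨d, w, hw, hdw⟩ := ps_fac (κ := κ) (e := 1) (v := X) isUnit_one (by rw [one_mul]) δ hδ
  have hdvd : δ ^ 2 ∣ (X : κ⟦X⟧) ^ (2 * d) := by
    rw [hdw, mul_pow, ← pow_mul, mul_comm d 2]
    exact ((hw.pow 2).mul_left_dvd).2 dvd_rfl
  have hmul : ∀ a b : κ⟦X⟧, δ ^ 2 ∣ ψ a - a - derivative κ a * δ →
      δ ^ 2 ∣ ψ b - b - derivative κ b * δ →
      δ ^ 2 ∣ ψ (a * b) - a * b - derivative κ (a * b) * δ := by
    rintro a b ⟨α, hα⟩ ⟨β, hβ⟩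
    have h1 : ψ a = a + derivative κ a * δ + δ ^ 2 * α := by linear_combination hα
    have h2 : ψ b = b + derivative κ b * δ + δ ^ 2 * β := by linear_combination hβ
    rw [map_mul, h1, h2, Derivation.leibniz, smul_eq_mul, smul_eq_mul]
    refine ⟨derivative κ a * derivative κ b + α * b + a * β + derivative κ a * δ * β +
      δ * α * derivative κ b + δ ^ 2 * α * β, ?_⟩
    ring
  have hadd : ∀ a b : κ⟦X⟧, δ ^ 2 ∣ ψ a - a - derivative κ a * δ →
      δ ^ 2 ∣ ψ b - b - derivative κ b * δ →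
      δ ^ 2 ∣ ψ (a + b) - (a + b) - derivative κ (a + b) * δ := by
    intro a b ha hb
    have := dvd_add ha hb
    rw [map_add, map_add]
    refine this.trans (dvd_of_eq ?_)
    ring
  have hCc : ∀ c : κ, δ ^ 2 ∣ ψ (C c) - C c - derivative κ (C c) * δ := by
    intro c
    rw [hC, derivative_C, zero_mul, sub_self, sub_zero]
    exact dvd_zero _
  have hXX : δ ^ 2 ∣ ψ X - X - derivative κ (X : κ⟦X⟧) * δ := by
    rw [derivative_X, one_mul, ← hδdef, sub_self]
    exact dvd_zero _
  have hpoly : ∀ q : Polynomial κ, δ ^ 2 ∣ ψ (q : κ⟦X⟧) - q - derivative κ (q : κ⟦X⟧) * δ := by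
    intro q
    induction q using Polynomial.induction_on with
    | C c => rw [Polynomial.coe_C]; exact hCc c
    | add q r hq hr => rw [Polynomial.coe_add]; exact hadd _ _ hq hr
    | monomial m c h =>
      have h1 : ((Polynomial.C c * Polynomial.X ^ (m + 1) : Polynomial κ) : κ⟦X⟧) =
          ((Polynomial.C c * Polynomial.X ^ m : Polynomial κ) : κ⟦X⟧) * X := by
        simp only [Polynomial.coe_mul, Polynomial.coe_C, Polynomial.coe_pow, Polynomial.coe_X]
        rw [pow_succ, mul_assoc]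
      rw [h1]
      exact hmul _ _ h hXX
  rw [eq_X_pow_mul_shift_add_trunc (2 * d + 1) a]
  refine hadd _ _ ?_ (hpoly _)
  refine hdvd.trans ?_
  set r : κ⟦X⟧ := mk fun i ↦ coeff (i + (2 * d + 1)) a
  have e1 : (X : κ⟦X⟧) ^ (2 * d) ∣ X ^ (2 * d + 1) * r :=
    (pow_dvd_pow _ (Nat.le_succ _)).mul_right _
  have e2 : (X : κ⟦X⟧) ^ (2 * d) ∣ ψ (X ^ (2 * d + 1) * r) := by
    rw [map_mul, map_pow]
    exact ((pow_dvd_pow_of_dvd hX _).trans (pow_dvd_pow _ (Nat.le_succ _))).mul_right _
  have e3 : (X : κ⟦X⟧) ^ (2 * d) ∣ derivative κ (X ^ (2 * d + 1) * r) := by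
    rw [Derivation.leibniz, Derivation.leibniz_pow, smul_eq_mul, smul_eq_mul,
      Nat.add_sub_cancel, smul_eq_mul, derivative_X, mul_one]
    refine dvd_add ((pow_dvd_pow _ (Nat.le_succ _)).mul_right _) ?_
    rw [nsmul_eq_mul]
    exact (dvd_mul_left _ _).mul_left _
  exact dvd_sub (dvd_sub e2 e1) (e3.mul_right _)

/-- an endomorphism close to the identity, fixing a series with nonzero derivative, fixes `X`. -/
theorem fix_of_close (ψ : κ⟦X⟧ →+* κ⟦X⟧) (hC : ∀ c, ψ (C c) = C c)
    (h0 : constantCoeff (ψ X) = 0) {w : κ⟦X⟧} (hw : ψ w = w) {N : ℕ}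
    (hN : ¬ X ^ N ∣ derivative κ w) (hclose : X ^ N ∣ ψ X - X) : ψ X = X := by
  by_contra hne
  have hδ : ψ X - X ≠ 0 := sub_ne_zero.2 hne
  obtain ⟨q, hq⟩ := taylor ψ hC h0 hδ w
  rw [hw, sub_self, zero_sub] at hq
  have h1 : derivative κ w = (ψ X - X) * (-q) := by
    apply mul_right_cancel₀ hδ
    linear_combination -hq
  exact hN (hclose.trans ⟨-q, h1⟩)

/-- an endomorphism fixing constants and `X` is the identity. -/
theorem eq_id_of_fix (ψ : κ⟦X⟧ →+* κ⟦X⟧) (hC : ∀ c, ψ (C c) = C c) (hX : ψ X = X)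
    (a : κ⟦X⟧) : ψ a = a := by
  have hpoly : ∀ q : Polynomial κ, ψ (q : κ⟦X⟧) = q := by
    intro q
    induction q using Polynomial.induction_on with
    | C c => rw [Polynomial.coe_C]; exact hC c
    | add q r hq hr => rw [Polynomial.coe_add, map_add, hq, hr]
    | monomial m c h =>
      simp only [Polynomial.coe_mul, Polynomial.coe_C, Polynomial.coe_pow, Polynomial.coe_X,
        map_mul, map_pow, hC, hX]
  ext j
  have h1 := eq_X_pow_mul_shift_add_trunc (j + 1) a
  set r : κ⟦X⟧ := mk fun i ↦ coeff (i + (j + 1)) a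
  have h2 : ψ a - a = X ^ (j + 1) * (ψ r - r) := by
    rw [h1, map_add, map_mul, map_pow, hX, hpoly]
    ring
  have h3 : (X : κ⟦X⟧) ^ (j + 1) ∣ ψ a - a := ⟨_, h2⟩
  have h4 := X_pow_dvd_iff.1 h3 j (Nat.lt_succ_self j)
  rwa [map_sub, sub_eq_zero] at h4

/-- from a nonconstant series fixed by a set of endomorphisms we get one with nonzero
derivative. -/
theorem exists_root (p : ℕ) [hp : Fact p.Prime] [CharP κ p] [PerfectRing κ p] (S : Set (κ⟦X⟧ →+* κ⟦X⟧)) (j : ℕ) (hj : 0 < j) (z : κ⟦X⟧)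
    (hz : coeff j z ≠ 0) (hS : ∀ ψ ∈ S, ψ z = z) :
    ∃ w : κ⟦X⟧, (∀ ψ ∈ S, ψ w = w) ∧ derivative κ w ≠ 0 := by
  induction j using Nat.strong_induction_on generalizing z with
  | _ j ih =>
    by_cases hd : derivative κ z = 0
    · obtain ⟨g, hg⟩ := exists_expand_of_derivative_eq_zero p z hd
      have hpj : p ∣ j := by
        by_contra hpj
        rw [hg, PowerSeries.coeff_expand, if_neg hpj] at hz
        exact hz rfl
      obtain ⟨i, rfl⟩ := hpj
      have hi : 0 < i := Nat.pos_of_mul_pos_left hj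
      have hchar : CharP κ⟦X⟧ p := ps_charP κ
      have hexp : ExpChar κ⟦X⟧ p := ExpChar.prime hp.out
      set g' : κ⟦X⟧ := PowerSeries.map ((frobeniusEquiv κ p).symm : κ →+* κ) g with hg'
      have h1 : g' ^ p = z := by
        have h2 := MvPowerSeries.map_frobenius_expand (σ := Unit) (R := κ) p hp.out.ne_zero
          (f := g')
        have h3 : PowerSeries.map (frobenius κ p) g' = g := by
          ext k
          rw [coeff_map, hg', coeff_map]
          exact (frobeniusEquiv κ p).apply_symm_apply _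
        have h4 : MvPowerSeries.map (frobenius κ p)
            (MvPowerSeries.expand p hp.out.ne_zero g') =
            PowerSeries.expand p hp.out.ne_zero (PowerSeries.map (frobenius κ p) g') := by
          rw [← PowerSeries.map_expand]
          rfl
        rw [← h2, h4, h3, hg]
      refine ih i ?_ hi g' ?_ ?_
      · exact lt_mul_left hi hp.out.one_lt
      · intro h0
        apply hz
        have h5 : coeff i g = 0 := by
          rw [hg', coeff_map] at h0
          have h6 := congrArg (frobeniusEquiv κ p) h0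
          rw [map_zero] at h6
          rw [← h6]
          exact ((frobeniusEquiv κ p).apply_symm_apply _).symm
        rw [hg, PowerSeries.coeff_expand_mul, h5]
      · intro ψ hψ
        have h6 := hS ψ hψ
        rw [← h1, map_pow] at h6
        exact (frobenius_inj κ⟦X⟧ p) h6
    · exact ⟨z, hS, hd⟩

end Abs

end Vale.Agent.P261.H432
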