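import Vale.Agent.P261.H432.Inf
import Vale.Agent.P261.H432.Series

/-!
# P261 (helper432): the invariants of `E₀/I_{n-1}` under a finite-index subgroup are constants
-/

namespace Vale.Agent.P261.H432

open Vale.Agent.P217

variable {p n : ℕ} [hp : Fact p.Prime] {Γ : FormalGroup (ZMod p)} {F : FormalGroup (E0 p n)}

/-- the elements of the action group preserve the height ideals. -/
theorem mem_inv (hn : 1 ≤ n) (hΓ : LT.IsHonda p n Γ) (hF : LT.IsUniversal p n Γ F)
    (hH : LT.HeightAdapted p n F) {h : ℕ} (hh : h ≤ n) {φ : RingAut (E0 p n)}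
    (hφ : φ ∈ LT.actionGroup p n Γ F) {x : E0 p n} (hx : x ∈ heightIdeal p n h) :
    φ x ∈ heightIdeal p n h := by
  have hF' := LTC.isUniversal_iff.1 hF
  obtain ⟨-, hJ⟩ := LTC.main hn hΓ hF hH
  obtain ⟨σ, γ, hψ'⟩ := (H260.mem_actionGroup hF' φ).1 hφ
  have h1 := (((hJ _).1).2 ⟨h, hh, rfl⟩).2 σ γ _ hψ'
  have h2 : (φ : E0 p n →+* E0 p n) x ∈
      (LT.heightIdeal p n h).map (φ : E0 p n →+* E0 p n) := Ideal.mem_map_of_mem _ hx
  rw [h1] at h2
  exact h2

/-- the isomorphism attached to an element of the action group. -/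
theorem exists_acts (hF : LT.IsUniversal p n Γ F) {φ : RingAut (E0 p n)}
    (hφ : φ ∈ LT.actionGroup p n Γ F) :
    ∃ (σ : GaloisField p n ≃+* GaloisField p n) (g : PowerSeries (E0 p n)),
      (∀ x, red p n (φ x) = σ (red p n x)) ∧
      P217.IsIso (F.map (φ : E0 p n →+* E0 p n)) F g := by
  have hF' := LTC.isUniversal_iff.1 hF
  obtain ⟨σ, γ, -, g, h1, h2, h3⟩ := (H260.mem_actionGroup hF' φ).1 hφ
  exact ⟨σ, g, fun x => RingHom.congr_fun h1 x, LTC.isIso_iff.1 h2⟩

/-- the induced endomorphism of `E₀/I_{n-1} = κ[[X]]`. -/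
theorem exists_desc (hn : 2 ≤ n) (hΓ : LT.IsHonda p n Γ) (hF : LT.IsUniversal p n Γ F)
    (hH : LT.HeightAdapted p n F) {φ : RingAut (E0 p n)}
    (hφ : φ ∈ LT.actionGroup p n Γ F) :
    ∃ ψ : PowerSeries (GaloisField p n) →+* PowerSeries (GaloisField p n),
      ∀ x, ψ (rho p n hn x) = rho p n hn (φ x) := by
  have hker : RingHom.ker (rho p n hn) ≤
      RingHom.ker ((rho p n hn).comp (φ : E0 p n →+* E0 p n)) := by
    intro x hx
    rw [ker_rho] at hx
    rw [RingHom.mem_ker, RingHom.comp_apply, ← RingHom.mem_ker, ker_rho]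
    exact mem_inv (by omega) hΓ hF hH (by omega) hφ hx
  refine ⟨(rho p n hn).liftOfSurjective (rho_surjective hn)
    ⟨(rho p n hn).comp (φ : E0 p n →+* E0 p n), hker⟩, fun x => ?_⟩
  exact RingHom.congr_fun (RingHom.liftOfSurjective_comp _ (rho_surjective hn) ⟨_, hker⟩) x

/-- properties of the induced endomorphism. -/
theorem desc_cc (hn : 2 ≤ n) {φ : RingAut (E0 p n)}
    {σ : GaloisField p n ≃+* GaloisField p n} (hσ : ∀ x, red p n (φ x) = σ (red p n x))
    {ψ : PowerSeries (GaloisField p n) →+* PowerSeries (GaloisField p n)}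
    (hψ : ∀ x, ψ (rho p n hn x) = rho p n hn (φ x)) (y : PowerSeries (GaloisField p n)) :
    PowerSeries.constantCoeff (ψ y) = σ (PowerSeries.constantCoeff y) := by
  obtain ⟨x, rfl⟩ := rho_surjective hn y
  rw [hψ, constantCoeff_rho, constantCoeff_rho, hσ]

theorem desc_C (hn : 1 ≤ n) {σ : GaloisField p n ≃+* GaloisField p n}
    {ψ : PowerSeries (GaloisField p n) →+* PowerSeries (GaloisField p n)}
    (hψ : ∀ y, PowerSeries.constantCoeff (ψ y) = σ (PowerSeries.constantCoeff y))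
    (c : GaloisField p n) : ψ (PowerSeries.C c) = PowerSeries.C (σ c) := by
  have h1 : (ψ (PowerSeries.C c)) ^ p ^ n = ψ (PowerSeries.C c) := by
    rw [← map_pow, ← map_pow, galois_pow hn]
  have h2 := eq_C_of_pow_eq (p := p) (τ := Unit) hn h1
  refine h2.trans ?_
  have h3 := hψ (PowerSeries.C c)
  rw [PowerSeries.constantCoeff_C] at h3
  rw [← h3]
  rfl

/-- the automorphisms which are the identity modulo `I_{n-1} + (u_{n-1}^N)`. -/
noncomputable def WN (p n : ℕ) [Fact p.Prime] (hn : 2 ≤ n) (N : ℕ) :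
    Subgroup (RingAut (E0 p n)) where
  carrier := {φ | ∀ x, (PowerSeries.X : PowerSeries (GaloisField p n)) ^ N ∣
    rho p n hn (φ x) - rho p n hn x}
  one_mem' := fun x => by
    change _ ∣ rho p n hn x - rho p n hn x
    rw [sub_self]
    exact dvd_zero _
  mul_mem' := by
    intro φ ψ hφ hψ x
    change _ ∣ rho p n hn (φ (ψ x)) - rho p n hn x
    have := dvd_add (hφ (ψ x)) (hψ x)
    rwa [sub_add_sub_cancel] at this
  inv_mem' := by
    intro φ hφ x
    have h1 := hφ (φ⁻¹ x)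
    have h2 : φ (φ⁻¹ x) = x := φ.apply_symm_apply x
    rw [h2] at h1
    rw [← dvd_neg, neg_sub]
    exact h1

theorem mem_WN (hn : 2 ≤ n) {N : ℕ} {φ : RingAut (E0 p n)} :
    φ ∈ WN p n hn N ↔ ∀ x, (PowerSeries.X : PowerSeries (GaloisField p n)) ^ N ∣
      rho p n hn (φ x) - rho p n hn x := Iff.rfl

/-- the action group preserves the ideal of the elements divisible by `X^N` modulo `I_{n-1}`. -/
theorem dvd_inv (hn : 2 ≤ n) (hΓ : LT.IsHonda p n Γ) (hF : LT.IsUniversal p n Γ F)
    (hH : LT.HeightAdapted p n F) {φ : RingAut (E0 p n)}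
    (hφ : φ ∈ LT.actionGroup p n Γ F) {N : ℕ} {x : E0 p n}
    (hx : (PowerSeries.X : PowerSeries (GaloisField p n)) ^ N ∣ rho p n hn x) :
    (PowerSeries.X : PowerSeries (GaloisField p n)) ^ N ∣ rho p n hn (φ x) := by
  obtain ⟨ψ, hψ⟩ := exists_desc hn hΓ hF hH hφ
  obtain ⟨σ, g, hσ, -⟩ := exists_acts hF hφ
  have h1 := desc_cc hn hσ hψ PowerSeries.X
  rw [PowerSeries.constantCoeff_X, map_zero] at h1
  obtain ⟨y, hy⟩ := hx
  rw [← hψ, hy, map_mul, map_pow]
  exact (pow_dvd_pow_of_dvd (PowerSeries.X_dvd_iff.2 h1) N).mul_right _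

theorem WN_relIndex (hn : 2 ≤ n) (hΓ : LT.IsHonda p n Γ) (hF : LT.IsUniversal p n Γ F)
    (hH : LT.HeightAdapted p n F) (N : ℕ) :
    (WN p n hn N).relIndex (LT.actionGroup p n Γ F) ≠ 0 := by
  classical
  set K := LT.actionGroup p n Γ F with hK
  set C := (WN p n hn N).subgroupOf K with hC
  let t : E0 p n → (Fin N → GaloisField p n) :=
    fun x i => PowerSeries.coeff (i : ℕ) (rho p n hn x)
  have ht : ∀ x y, t x = t y ↔ (PowerSeries.X : PowerSeries (GaloisField p n)) ^ N ∣
      rho p n hn (x - y) := by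
    intro x y
    rw [PowerSeries.X_pow_dvd_iff]
    constructor
    · intro h m hm
      rw [map_sub, map_sub, sub_eq_zero]
      exact congrFun h ⟨m, hm⟩
    · intro h
      funext i
      have := h i i.2
      rwa [map_sub, map_sub, sub_eq_zero] at this
  have hsurj : ∀ q : Fin N → GaloisField p n, ∃ x, t x = q := by
    intro q
    obtain ⟨x, hx⟩ := rho_surjective (p := p) hn
      (PowerSeries.mk fun i => if h : i < N then q ⟨i, h⟩ else 0)
    refine ⟨x, ?_⟩
    funext i
    change PowerSeries.coeff (i : ℕ) (rho p n hn x) = _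
    rw [hx, PowerSeries.coeff_mk, dif_pos i.2]
  choose lift hlift using hsurj
  let f : K → ((Fin N → GaloisField p n) → (Fin N → GaloisField p n)) :=
    fun φ q => t ((φ : RingAut (E0 p n)) (lift q))
  have key : ∀ φ φ' : K, f φ = f φ' → (QuotientGroup.mk φ : K ⧸ C) = QuotientGroup.mk φ' := by
    intro φ φ' h
    rw [QuotientGroup.eq, hC, Subgroup.mem_subgroupOf, mem_WN]
    intro x
    have h1 : (PowerSeries.X : PowerSeries (GaloisField p n)) ^ N ∣
        rho p n hn (x - lift (t x)) := (ht _ _).1 (hlift _).symm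
    have h2 := dvd_inv hn hΓ hF hH φ.2 h1
    have h3 := dvd_inv hn hΓ hF hH φ'.2 h1
    have h4 : (PowerSeries.X : PowerSeries (GaloisField p n)) ^ N ∣
        rho p n hn ((φ : RingAut (E0 p n)) (lift (t x)) -
          (φ' : RingAut (E0 p n)) (lift (t x))) := (ht _ _).1 (congrFun h (t x))
    have h5 : (PowerSeries.X : PowerSeries (GaloisField p n)) ^ N ∣
        rho p n hn ((φ' : RingAut (E0 p n)) x - (φ : RingAut (E0 p n)) x) := by
      have h6 := dvd_sub (dvd_sub h3 h2) h4
      rw [← map_sub, ← map_sub] at h6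
      refine h6.trans (dvd_of_eq ?_)
      congr 1
      rw [map_sub, map_sub]
      ring
    have h7 := dvd_inv hn hΓ hF hH (K.inv_mem φ.2) h5
    rw [map_sub] at h7
    have h8 : (φ : RingAut (E0 p n))⁻¹ ((φ : RingAut (E0 p n)) x) = x :=
      (φ : RingAut (E0 p n)).symm_apply_apply x
    rw [h8, map_sub] at h7
    exact h7
  have hinj : Function.Injective (fun q : K ⧸ C => f q.out) := by
    intro q q' h
    have := key _ _ h
    rwa [QuotientGroup.out_eq', QuotientGroup.out_eq'] at this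
  have hfq : Finite (K ⧸ C) := Finite.of_injective _ hinj
  exact Subgroup.index_ne_zero_of_finite

/-- **The invariants of `E₀/I_{n-1}` under a finite-index subgroup are constants.** -/
theorem noInv (hn : 2 ≤ n) (hΓ : LT.IsHonda p n Γ) (hF : LT.IsUniversal p n Γ F)
    (hH : LT.HeightAdapted p n F) (U : Subgroup (RingAut (E0 p n)))
    (hU : U ≤ LT.actionGroup p n Γ F) (hfin : U.relIndex (LT.actionGroup p n Γ F) ≠ 0)
    (z : E0 p n) (hz : ∀ φ ∈ U, rho p n hn (φ z) = rho p n hn z) :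
    rho p n hn z = PowerSeries.C (red p n z) := by
  by_contra hcon
  obtain ⟨j, hj, hjz⟩ : ∃ j, 0 < j ∧ PowerSeries.coeff j (rho p n hn z) ≠ 0 := by
    by_contra hall
    push Not at hall
    apply hcon
    ext j
    rw [PowerSeries.coeff_C]
    split_ifs with h0
    · rw [h0, PowerSeries.coeff_zero_eq_constantCoeff_apply, constantCoeff_rho]
    · exact hall j (Nat.pos_of_ne_zero h0)
  let S : Set (PowerSeries (GaloisField p n) →+* PowerSeries (GaloisField p n)) :=
    {ψ | ∃ φ ∈ U, ∀ x, ψ (rho p n hn x) = rho p n hn (φ x)}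
  obtain ⟨w, hwS, hw'⟩ := exists_root p S j hj (rho p n hn z) hjz (by
    rintro ψ ⟨φ, hφ, hψ⟩
    rw [hψ, hz φ hφ])
  obtain ⟨N, hN⟩ : ∃ N, ¬ (PowerSeries.X : PowerSeries (GaloisField p n)) ^ (N + 1) ∣
      PowerSeries.derivative (GaloisField p n) w := by
    obtain ⟨k, hk⟩ : ∃ k, PowerSeries.coeff k (PowerSeries.derivative (GaloisField p n) w) ≠ 0 := by
      by_contra hall
      push Not at hall
      apply hw'
      ext k
      rw [hall k, map_zero]
    refine ⟨k, fun h => hk ?_⟩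
    exact PowerSeries.X_pow_dvd_iff.1 h k (Nat.lt_succ_self k)
  -- the subgroup of the elements of `U` close to the identity
  obtain ⟨φ, hφ, x, hx⟩ := inf hn hΓ hF hH (U ⊓ WN p n hn (N + 1))
    (Subgroup.relIndex_inf_ne_zero hfin (WN_relIndex hn hΓ hF hH (N + 1)))
  obtain ⟨hφU, hφW⟩ := Subgroup.mem_inf.1 hφ
  obtain ⟨ψ, hψ⟩ := exists_desc hn hΓ hF hH (hU hφU)
  obtain ⟨σ, g, hσ, -⟩ := exists_acts hF (hU hφU)
  have hcc := desc_cc hn hσ hψ
  -- `σ` is the identity
  have hσ1 : ∀ c, σ c = c := by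
    intro c
    obtain ⟨y, hy⟩ := rho_surjective (p := p) hn (PowerSeries.C c)
    have h1 := (mem_WN hn).1 hφW y
    have h2 : (PowerSeries.X : PowerSeries (GaloisField p n)) ∣
        rho p n hn (φ y) - rho p n hn y := (dvd_pow_self _ (Nat.succ_ne_zero N)).trans h1
    rw [PowerSeries.X_dvd_iff, map_sub, ← hψ, hcc, hy, PowerSeries.constantCoeff_C,
      sub_eq_zero] at h2
    exact h2
  have hC : ∀ c, ψ (PowerSeries.C c) = PowerSeries.C c := by
    intro c
    rw [desc_C (by omega) hcc, hσ1]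
  have h0 : PowerSeries.constantCoeff (ψ PowerSeries.X) = 0 := by
    rw [hcc, PowerSeries.constantCoeff_X, map_zero]
  have hclose : (PowerSeries.X : PowerSeries (GaloisField p n)) ^ (N + 1) ∣
      ψ PowerSeries.X - PowerSeries.X := by
    obtain ⟨y, hy⟩ := rho_surjective (p := p) hn PowerSeries.X
    have h1 := (mem_WN hn).1 hφW y
    rw [← hψ, hy] at h1
    exact h1
  have hX := fix_of_close ψ hC h0 (hwS ψ ⟨φ, hφU, hψ⟩) hN hclose
  apply hx
  rw [← hψ, eq_id_of_fix ψ hC hX]

end Vale.Agent.P261.H432
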